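import Vale.Agent.P315.H486.Main2
import Vale.Agent.P315.RAM.Inst

/-!
# The multiplicative version: from a strategy to `Top.Solves`

`main_solves2`: a strategy, parameters and a program for the table with pure properties give a
program with `Top.Solves`.
-/

set_option autoImplicit false

namespace Vale.Agent.P315.H486

open Vale.Agent.P315 Vale.Agent.P315.RAM Vale.Agent.P315.H873 Vale.Agent.P315.H992
open Vale.Agent.Lib.PolyTime (Word pb pr FP PT Enc enc esize)
open Vale.Agent.P315.H817 (stCell stAns stCell_spec stCell_wr stCell_wa length_stAns stAns_le)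

/-- Parameters as functions of the two lengths: `m` bits of the numbers, `N` seeds for the
strategy and `NS` seeds for the table, which are residues mod `e`, `Q` rounds, `NV` entries of the
table, band `kb`, rows of length `l`, mesh `mu`, `mc` mesh steps in a row, `D` the base of the codes
of the queries; further parameters `ext i` in the registers `i ∈ er`; `rs` = registers which form
the prefix of the feed; `Pre` = the program for the table. -/
structure MulF where
  m : ℕ × ℕ → ℕ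
  N : ℕ × ℕ → ℕ
  e : ℕ × ℕ → ℕ
  Q : ℕ × ℕ → ℕ
  NS : ℕ × ℕ → ℕ
  NV : ℕ × ℕ → ℕ
  kb : ℕ × ℕ → ℕ
  l : ℕ × ℕ → ℕ
  mu : ℕ × ℕ → ℕ
  mc : ℕ × ℕ → ℕ
  D : ℕ × ℕ → ℕ
  ext : ℕ → ℕ × ℕ → ℕ
  er : List ℕ
  rs : List ℕ
  Pre : Prog
  pt_m : PT ∅ m
  pt_N : PT ∅ N
  pt_e : PT ∅ e
  pt_Q : PT ∅ Q
  pt_NS : PT ∅ NS
  pt_NV : PT ∅ NV
  pt_kb : PT ∅ kb
  pt_l : PT ∅ l
  pt_mu : PT ∅ mu
  pt_mc : PT ∅ mc
  pt_D : PT ∅ D
  pt_ext : ∀ i ∈ er, PT ∅ (ext i)
  er_ok : ∀ i ∈ er, i = 3 ∨ i = 4 ∨ (80 ≤ i ∧ i < 100) ∨ (102 ≤ i ∧ i < 200)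
  rs_ok : ∀ r ∈ rs, r = 0 ∨ r = 1 ∨ r ∈ [50, 51, 52, 53, 61, 68, 69, 71, 74, 75, 76, 78] ++ er
  quiet : Quiet ([50, 51, 52, 53, 61, 68, 69, 71, 74, 75, 76, 78] ++ er) Pre

namespace MulF

variable (F : MulF)

/-- The parameter registers. -/
def regs : List ℕ := [50, 51, 52, 53, 61, 68, 69, 71, 74, 75, 76, 78] ++ F.er

/-- The length of the feed. -/
def NF (p : ℕ × ℕ) : ℕ := F.rs.length + F.N p + F.NV p

/-- The contents of the parameter registers. -/
def par (i : ℕ) (p : ℕ × ℕ) : ℕ :=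
  if i = 50 then F.l p else if i = 51 then F.mu p else if i = 52 then F.mc p
  else if i = 53 then F.D p else if i = 61 then F.m p else if i = 68 then F.Q p
  else if i = 69 then F.NF p else if i = 71 then F.e p else if i = 74 then F.N p
  else if i = 75 then F.NV p else if i = 76 then F.NS p else if i = 78 then F.kb p
  else F.ext i p

@[simp] theorem par50 (p : ℕ × ℕ) : F.par 50 p = F.l p := rfl
@[simp] theorem par51 (p : ℕ × ℕ) : F.par 51 p = F.mu p := rfl
@[simp] theorem par52 (p : ℕ × ℕ) : F.par 52 p = F.mc p := rfl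
@[simp] theorem par53 (p : ℕ × ℕ) : F.par 53 p = F.D p := rfl
@[simp] theorem par61 (p : ℕ × ℕ) : F.par 61 p = F.m p := rfl
@[simp] theorem par68 (p : ℕ × ℕ) : F.par 68 p = F.Q p := rfl
@[simp] theorem par69 (p : ℕ × ℕ) : F.par 69 p = F.NF p := rfl
@[simp] theorem par71 (p : ℕ × ℕ) : F.par 71 p = F.e p := rfl
@[simp] theorem par74 (p : ℕ × ℕ) : F.par 74 p = F.N p := rfl
@[simp] theorem par75 (p : ℕ × ℕ) : F.par 75 p = F.NV p := rfl
@[simp] theorem par76 (p : ℕ × ℕ) : F.par 76 p = F.NS p := rfl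
@[simp] theorem par78 (p : ℕ × ℕ) : F.par 78 p = F.kb p := rfl

theorem par_ext {i : ℕ} (hi : i ∈ F.er) : F.par i = F.ext i := by
  have h := F.er_ok i hi
  funext p
  unfold par
  simp only [show i ≠ 50 by omega, show i ≠ 51 by omega, show i ≠ 52 by omega,
    show i ≠ 53 by omega, show i ≠ 61 by omega, show i ≠ 68 by omega, show i ≠ 69 by omega,
    show i ≠ 71 by omega, show i ≠ 74 by omega, show i ≠ 75 by omega, show i ≠ 76 by omega,
    show i ≠ 78 by omega, if_false]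

theorem mem_regs {i : ℕ} : i ∈ F.regs ↔ i = 50 ∨ i = 51 ∨ i = 52 ∨ i = 53 ∨ i = 61 ∨ i = 68 ∨
    i = 69 ∨ i = 71 ∨ i = 74 ∨ i = 75 ∨ i = 76 ∨ i = 78 ∨ i ∈ F.er := by
  unfold regs
  simp

theorem pt_par : ∀ i ∈ F.regs, PT ∅ (F.par i) := by
  intro i hi
  rcases F.mem_regs.mp hi with h | h | h | h | h | h | h | h | h | h | h | h | h
  · subst h; exact F.pt_l
  · subst h; exact F.pt_mu
  · subst h; exact F.pt_mc
  · subst h; exact F.pt_D
  · subst h; exact F.pt_m
  · subst h; exact F.pt_Q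
  · subst h
    exact PT.add (PT.add (PT.const _) F.pt_N) F.pt_NV
  · subst h; exact F.pt_e
  · subst h; exact F.pt_N
  · subst h; exact F.pt_NV
  · subst h; exact F.pt_NS
  · subst h; exact F.pt_kb
  · rw [F.par_ext h]; exact F.pt_ext i h

theorem regsOk : RegsOk F.regs := by
  refine ⟨fun i hi => ?_, ?_, ?_, ?_, ?_, ?_, ?_, ?_, ?_⟩
  · unfold RegOk
    rcases F.mem_regs.mp hi with h | h | h | h | h | h | h | h | h | h | h | h | h
    all_goals first
      | omega
      | (have := F.er_ok i h; omega)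
  all_goals rw [F.mem_regs]; omega

/-- The prefix of the feed. -/
def pfx (p : ℕ × ℕ) : List ℕ := preOf F.par F.rs p

/-- The answers to the queries. -/
def ans (x y : List ℕ) : ℕ → List ℕ :=
  stAns (fun i => x.getD i 0) (fun i => y.getD i 0) (F.l (len2 x y)) (F.mu (len2 x y))
    (F.mc (len2 x y)) (F.D (len2 x y))

/-- The conditions on the parameters; the codes of the queries are below `Vb`, sizes of states at
most `S`, everything at most `R`; `Sz` = size of the expressions in `Pre`, `Tp` = time of `Pre`,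
`VIS` = the table as a function of the seeds. -/
structure Fits (x y : List ℕ) (S Vb R Sz Tp : ℕ) (VIS : (ℕ → ℕ) → List ℕ) : Prop where
  hx : x.length < 2 ^ F.m (len2 x y)
  hy : y.length < 2 ^ F.m (len2 x y)
  hl : F.l (len2 x y) < 2 ^ F.m (len2 x y)
  hpre : ∀ v ∈ F.pfx (len2 x y), v < 2 ^ F.m (len2 x y)
  e0 : 0 < F.e (len2 x y)
  e1 : F.e (len2 x y) ≤ 2 ^ F.m (len2 x y)
  grid : F.mc (len2 x y) * F.mu (len2 x y) ≤ F.l (len2 x y)
  lin : 10 * (x.length + y.length + 10) ≤ R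
  mR : 2 ^ F.m (len2 x y) ≤ R
  sm : 4 * F.m (len2 x y) + 10 ≤ R
  sN : F.NF (len2 x y) * (2 * F.m (len2 x y) + 1) + S + 2 * F.m (len2 x y) + 10 ≤ R
  sNS : F.NS (len2 x y) ≤ R
  sQ : F.Q (len2 x y) ≤ R
  skb : F.kb (len2 x y) + 1 ≤ R
  sV : (Vb + 1) * (F.l (len2 x y) + F.mu (len2 x y) + 1) ≤ R
  smc : F.mc (len2 x y) + 1 ≤ R
  sD : F.D (len2 x y) ≤ R
  sext : ∀ i ∈ F.er, F.ext i (len2 x y) ≤ R
  vis_len : ∀ sd, (VIS sd).length = F.NV (len2 x y)
  vis_lt : ∀ sd, ∀ v ∈ VIS sd, v < 2 ^ F.m (len2 x y)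
  pre : ∀ E : Env, R ≤ E.R → Sz ≤ E.S → ∀ (sd : ℕ → ℕ) (σ : State),
    (∀ i, sd i < F.e (len2 x y)) → Base F.par F.regs x y σ →
    (∀ i, i < F.NS (len2 x y) → σ.arr 140 i = sd i) →
    Spec E σ F.Pre Tp (fun σ' => ∀ j, j < F.NV (len2 x y) → σ'.arr 150 j = (VIS sd).getD j 0)

/-- Time for a query. -/
def stTime (l mu mc : ℕ) : ℕ := 70 + ((l + 1) * 14 + (mc + 1) * (14 + mu * (68 + l * 122)))

/-- The number of steps of the main program. -/
def cost (k₁ k₂ : ℕ) (p : ℕ × ℕ) (S Tp : ℕ) : ℕ :=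
  Tp + F.Q p * (stTime (F.l p) (F.mu p) (F.mc p) + (F.mc p + 2) * (S + 2 * F.m p + 10) ^ k₂) +
    360 * ((p.1 + p.2 + 1) * (F.kb p + 1)) + 82 * (p.1 + p.2) + (4 * F.m p + 10) ^ k₁ +
    14 * F.N p + 7 * F.rs.length + 10 * F.NS p + F.NF p * (41 * F.m p + 40) +
    3 * (F.NF p * (2 * F.m p + 1) + S + 2 * F.m p + 10) ^ k₂ + 200

/-- The seeds for the table. -/
def sdL (N NS : ℕ) (c : ℕ → ℕ) (i : ℕ) : ℕ := if i < NS then c (N + i) else 0

/-- The output as a function of the seeds `c i`, `i < N + NS`. -/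
noncomputable def fin {α : Type} [Enc α] (St : Strat α) (x y : List ℕ)
    (VIS : (ℕ → ℕ) → List ℕ) (c : ℕ → ℕ) : ℕ :=
  if ED x y ≤ F.kb (len2 x y) then ED x y
  else St.fin (F.ans x y) (F.Q (len2 x y))
    ((F.pfx (len2 x y) ++ (List.range (F.N (len2 x y))).map c) ++
      VIS (sdL (F.N (len2 x y)) (F.NS (len2 x y)) c))

end MulF

theorem stCell_quiet (F : MulF) : Quiet F.regs (stCell 60 191) := by
  refine ⟨fun h => ?_, fun h => ?_, fun i hi h => ?_, fun h => ?_, fun h => ?_, fun h => ?_⟩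
  · have := stCell_wr _ h; omega
  · have := stCell_wr _ h; omega
  · have h1 := stCell_wr _ h
    rcases F.mem_regs.mp hi with h2 | h2 | h2 | h2 | h2 | h2 | h2 | h2 | h2 | h2 | h2 | h2 | h2
    all_goals first
      | omega
      | (have := F.er_ok i h2; omega)
  · have := stCell_wa _ h; omega
  · have := stCell_wa _ h; omega
  · have := stCell_wa _ h; omega

/-- The output depends only on the seeds `c i`, `i < N + NS`. -/
theorem MulF.fin_congr (F : MulF) {α : Type} [Enc α] (St : Strat α) (x y : List ℕ)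
    (VIS : (ℕ → ℕ) → List ℕ) {c c' : ℕ → ℕ}
    (h : ∀ i, i < F.N (len2 x y) + F.NS (len2 x y) → c i = c' i) :
    F.fin St x y VIS c = F.fin St x y VIS c' := by
  have h1 : (List.range (F.N (len2 x y))).map c = (List.range (F.N (len2 x y))).map c' := by
    refine List.map_congr_left fun i hi => h i ?_
    have := List.mem_range.mp hi
    omega
  have h2 : MulF.sdL (F.N (len2 x y)) (F.NS (len2 x y)) c =
      MulF.sdL (F.N (len2 x y)) (F.NS (len2 x y)) c' := by
    funext i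
    unfold MulF.sdL
    split_ifs with hi
    · exact h _ (by omega)
    · rfl
  unfold MulF.fin
  rw [h1, h2]

/-- The conditions of `exists_main2` from those of `MulF.Fits`. -/
theorem MulF.spec {α : Type} [Enc α] (St : Strat α) : ∃ k₂ : ℕ, ∀ F : MulF,
    ∃ (k₁ : ℕ) (Big : Prog), ∀ (E : Env) (x y : List ℕ) (S Vb R Sz Tp : ℕ)
    (VIS : (ℕ → ℕ) → List ℕ), F.Fits x y S Vb R Sz Tp VIS →
    (∀ c : ℕ → ℕ, (∀ i, c i < F.e (len2 x y)) → St.RunOk (F.ans x y) (F.Q (len2 x y))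
      ((F.pfx (len2 x y) ++ (List.range (F.N (len2 x y))).map c) ++
        VIS (MulF.sdL (F.N (len2 x y)) (F.NS (len2 x y)) c)) S Vb R) →
    R ≤ E.R → Sz ≤ E.S → (4 * F.m (len2 x y) + 10) ^ k₁ ≤ E.R →
    (F.NF (len2 x y) * (2 * F.m (len2 x y) + 1) + S + 2 * F.m (len2 x y) + 10) ^ k₂ ≤ E.R →
    Spec E (State.init x y) Big (F.cost k₁ k₂ (len2 x y) S Tp)
      (fun s' => F.N (len2 x y) + F.NS (len2 x y) ≤ s'.coins ∧
        s'.reg 2 = F.fin St x y VIS (fun i => E.ρ i % F.e (len2 x y))) := by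
  obtain ⟨k₂, hk₂⟩ := exists_main2 St.pt_start St.pt_ask St.pt_upd St.pt_out
  refine ⟨k₂, fun F => ?_⟩
  obtain ⟨k₁, Big, hBig⟩ := hk₂ F.par F.regs F.pt_par F.regsOk F.rs F.rs_ok F.Pre (stCell 60 191)
    F.quiet (stCell_quiet F) (fun h => by have := stCell_wr _ h; omega)
    (fun h => by have := stCell_wr _ h; omega) (fun h => by have := stCell_wa _ h; omega)
    (fun h => by have := stCell_wa _ h; omega)
  refine ⟨k₁, Big, ?_⟩
  intro E x y S Vb R Sz Tp VIS hF hrun hR hSz hR1 hR2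
  set p := len2 x y with hp
  have hp1 : p.1 = x.length := rfl
  have hp2 : p.2 = y.length := rfl
  set c : ℕ → ℕ := fun i => E.ρ i % F.e p with hc
  have hce : ∀ i, c i < F.e p := fun i => Nat.mod_lt _ hF.e0
  have hfeed : feedG E.ρ 0 (F.par 71 p) (F.par 74 p) (preOf F.par F.rs p) =
      F.pfx p ++ (List.range (F.N p)).map c := by
    rw [F.par71, F.par74]
    unfold feedG MulF.pfx
    congr 1
    refine List.map_congr_left fun i _ => ?_
    rw [hc, Nat.zero_add]
  have hrun' := hrun c hce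
  have hmR : 2 ^ F.m p ≤ R := hF.mR
  have hsm : 4 * F.m p + 10 ≤ R := hF.sm
  have hsN : F.NF p * (2 * F.m p + 1) + S + 2 * F.m p + 10 ≤ R := hF.sN
  have hsV : (Vb + 1) * (F.l p + F.mu p + 1) ≤ R := hF.sV
  have hsmc : F.mc p + 1 ≤ R := hF.smc
  have hskb : F.kb p + 1 ≤ R := hF.skb
  have hlin : 10 * (x.length + y.length + 10) ≤ R := hF.lin
  have hNFm : F.NF p ≤ F.NF p * (2 * F.m p + 1) := Nat.le_mul_of_pos_right _ (by omega)
  have hNF : F.NF p = F.rs.length + F.N p + F.NV p := rfl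
  have hVq : ∀ q, q < Vb → q + 1 ≤ E.R ∧ q / F.D p * F.l p ≤ E.R ∧
      q % F.D p * F.mu p ≤ E.R ∧ F.l p + F.mu p + 1 ≤ E.R := by
    intro q hq
    have h2 : (q + 1) * (F.l p + F.mu p + 1) ≤ (Vb + 1) * (F.l p + F.mu p + 1) :=
      Nat.mul_le_mul_right _ (by omega)
    have h3 : q / F.D p * F.l p ≤ q * F.l p := Nat.mul_le_mul_right _ (Nat.div_le_self _ _)
    have h4 : q % F.D p * F.mu p ≤ q * F.mu p := Nat.mul_le_mul_right _ (Nat.mod_le _ _)
    have h5 : (q + 1) * (F.l p + F.mu p + 1) =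
      q * F.l p + q * F.mu p + F.l p + F.mu p + q + 1 := by ring
    refine ⟨?_, ?_, ?_, ?_⟩ <;> omega
  have hsV0 : F.l p + F.mu p + 1 ≤ E.R := by
    have h2 : 1 * (F.l p + F.mu p + 1) ≤ (Vb + 1) * (F.l p + F.mu p + 1) :=
      Nat.mul_le_mul_right _ (by omega)
    omega
  have hesz : esize (obj p) + 2 ≤ 4 * F.m p + 10 := by
    have := esize_obj_log (p := p) (m := F.m p) hF.hx hF.hy
    omega
  have hsz1 : (esize (obj p) + 2) ^ k₁ ≤ (4 * F.m p + 10) ^ k₁ := Nat.pow_le_pow_left hesz k₁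
  have key := hBig E x y p rfl hF.e0 (fun i hi => ?_) (hmR.trans hR) S (F.mc p + 1)
    (MulF.stTime (F.l p) (F.mu p) (F.mc p)) Tp (VIS (MulF.sdL (F.N p) (F.NS p) c))
    (fun q => q < Vb) (F.ans x y) rfl (hF.vis_len _) ?_ ?_ ?_ ?_ ?_ ?_ (hsz1.trans hR1) ?_ ?_ hR2
  · rw [hfeed] at key
    refine key.mono ?_ ?_
    · unfold MulF.cost
      simp only [F.par61, F.par68, F.par69, F.par74, F.par76, F.par78]
      rw [show F.mc p + 1 + 1 = F.mc p + 2 by rfl]
      omega
    · rintro s' ⟨h1, h2⟩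
      refine ⟨h1, ?_⟩
      rw [h2]
      rfl
  · rcases F.mem_regs.mp hi with h | h | h | h | h | h | h | h | h | h | h | h | h
    · subst h; rw [F.par50]; omega
    · subst h; rw [F.par51]; omega
    · subst h; rw [F.par52]; omega
    · subst h; rw [F.par53]; exact hF.sD.trans hR
    · subst h; rw [F.par61]; omega
    · subst h; rw [F.par68]; exact hF.sQ.trans hR
    · subst h; rw [F.par69]; omega
    · subst h; rw [F.par71]; exact (hF.e1.trans hmR).trans hR
    · subst h; rw [F.par74]; omega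
    · subst h; rw [F.par75]; omega
    · subst h; rw [F.par76]; exact hF.sNS.trans hR
    · subst h; rw [F.par78]; omega
    · rw [F.par_ext h]; exact (hF.sext i h).trans hR
  · rw [hfeed, F.par61]
    intro v hv
    rcases List.mem_append.mp hv with h | h
    · rcases List.mem_append.mp h with h | h
      · exact hF.hpre v h
      · obtain ⟨i, -, rfl⟩ := List.mem_map.mp h
        exact lt_of_lt_of_le (hce i) hF.e1
    · exact hF.vis_lt _ v h
  · intro σ hb h140
    refine hF.pre E hR hSz (MulF.sdL (F.N p) (F.NS p) c) σ (fun i => ?_) hb (fun i hi => ?_)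
    · unfold MulF.sdL
      split_ifs
      · exact hce _
      · exact hF.e0
    · rw [h140 i hi]
      unfold MulF.sdL
      rw [if_pos hi]
      rfl
  · intro q hq
    refine ⟨by have := (hVq q hq).1; omega, by simp [MulF.ans, length_stAns, hp], fun v hv => ?_⟩
    exact lt_of_le_of_lt (stAns_le _ _ hF.grid hv) hF.hl
  · intro σ q hb h60 hq
    obtain ⟨h1, h2, h3, h4⟩ := hVq q hq
    refine Spec.mono (stCell_spec (z := 60) (A := 191) (by norm_num) (by norm_num) hb.ax hb.ay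
      h60 (hb.par 50 (F.mem_regs.mpr (by omega))) (hb.par 51 (F.mem_regs.mpr (by omega)))
      (hb.par 52 (F.mem_regs.mpr (by omega))) (hb.par 53 (F.mem_regs.mpr (by omega)))
      hF.grid ?_ ?_ ?_ h2 h3) le_rfl ?_
    · rw [F.par50]
      show F.l p + 1 ≤ E.R
      omega
    · rw [F.par50, F.par51]
      show F.l p + F.mu p ≤ E.R
      omega
    · rw [F.par52]
      show F.mc p + 1 ≤ E.R
      omega
    · intro σ' h
      exact h
  · rw [hfeed]
    exact ⟨hrun'.ask, hrun'.size, hrun'.sizeQ, hrun'.out.trans hR⟩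
  · rw [hp1, hp2]
    omega
  · rw [F.par74]; omega
  · rw [F.par78]; omega

/-- Seeds from a function on `Fin`. -/
def ofFin {n e : ℕ} (c : Fin n → Fin e) (i : ℕ) : ℕ := if h : i < n then (c ⟨i, h⟩ : ℕ) else 0

theorem feedP_getD {n e : ℕ} (pre : List ℕ) (c : Fin n → Fin e) (i : ℕ) :
    (feedP pre c).getD (pre.length + i) 0 = ofFin c i := by
  unfold feedP ofFin
  rw [List.getD_append_right _ _ _ _ (by omega), Nat.add_sub_cancel_left]
  split_ifs with h
  · rw [List.getD_eq_getElem?_getD, List.getElem?_eq_getElem (by simpa using h)]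
    simp
  · rw [List.getD_eq_getElem?_getD, List.getElem?_eq_none (by simpa using h)]
    rfl

theorem feedG_getD (ρ : ℕ → ℕ) (e n : ℕ) (pre : List ℕ) {i : ℕ} (hi : i < n) :
    (feedG ρ 0 e n pre).getD (pre.length + i) 0 = ρ i % e := by
  unfold feedG
  rw [List.getD_append_right _ _ _ _ (by omega), Nat.add_sub_cancel_left,
    List.getD_eq_getElem?_getD, List.getElem?_eq_getElem (by simpa using hi)]
  simp

/-- The main theorem of the RAM part of the multiplicative version: a strategy (whose exponent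
`k₂` does not depend on the parameters), parameters with pure properties, and a program for the
table give a program. -/
theorem main_solves2 {α : Type} [Enc α] (St : Strat α) : ∃ k₂ : ℕ, ∀ (F : MulF)
    (n0 c1 Sz : ℕ) (S Vb Tp : List ℕ → List ℕ → ℕ)
    (VIS : List ℕ → List ℕ → (ℕ → ℕ) → List ℕ), 1 ≤ n0 →
    (∀ x y : List ℕ, n0 ≤ max x.length y.length →
      F.Fits x y (S x y) (Vb x y) ((max x.length y.length + 2) ^ c1) Sz (Tp x y) (VIS x y)) →
    (∀ x y : List ℕ, n0 ≤ max x.length y.length → ∃ j, F.e (len2 x y) = 2 ^ j) →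
    (∀ x y : List ℕ, n0 ≤ max x.length y.length → ∀ c : ℕ → ℕ,
      (∀ i, c i < F.e (len2 x y)) → St.RunOk (F.ans x y) (F.Q (len2 x y))
        ((F.pfx (len2 x y) ++ (List.range (F.N (len2 x y))).map c) ++
          VIS x y (MulF.sdL (F.N (len2 x y)) (F.NS (len2 x y)) c)) (S x y) (Vb x y)
        ((max x.length y.length + 2) ^ c1)) →
    ∃ k₁ : ℕ, ∀ (good : List ℕ → List ℕ → ℕ → Prop) (t : ℕ → ℝ),
      (∀ x y : List ℕ, n0 ≤ max x.length y.length →
        ((F.cost k₁ k₂ (len2 x y) (S x y) (Tp x y) + 8 : ℕ) : ℝ) ≤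
          t (max x.length y.length)) →
      (∀ n : ℕ, n < n0 → ((360 * ((n0 + 1) * (2 * n0 + 1)) + 10 : ℕ) : ℝ) ≤ t n) →
      (∀ x y : List ℕ, good x y (ED x y)) →
      (∀ x y : List ℕ, n0 ≤ max x.length y.length →
        2 * Nat.card (Fin (F.N (len2 x y) + F.NS (len2 x y)) → Fin (F.e (len2 x y))) ≤
          3 * Nat.card {c : Fin (F.N (len2 x y) + F.NS (len2 x y)) → Fin (F.e (len2 x y)) //
            good x y (F.fin St x y (VIS x y) (ofFin c))}) →
      ∃ (P : Prog) (k : ℕ), Top.Solves P good t k := by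
  obtain ⟨k₂, hk₂⟩ := MulF.spec St
  refine ⟨k₂, fun F n0 c1 Sz S Vb Tp VIS hn0 hFits he2 hrun => ?_⟩
  obtain ⟨k₁, Big, hBig⟩ := hk₂ F
  refine ⟨k₁, fun good t ht ht0 hgood0 hgood => ?_⟩
  set c0 := c1 * (k₁ + k₂ + 1) + (2 * n0 + 1) with hc0
  have h1 : 2 * n0 + 1 ≤ 2 ^ c0 :=
    (Nat.lt_two_pow_self (n := 2 * n0 + 1)).le.trans
      (Nat.pow_le_pow_right (by norm_num) (by omega))
  have hpow : ∀ n k, k ≤ k₁ + k₂ + 1 → ((n + 2) ^ c1) ^ k ≤ (n + 2) ^ c0 := by
    intro n k hk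
    rw [← pow_mul]
    refine Nat.pow_le_pow_right (by omega) ?_
    have := Nat.mul_le_mul_left c1 hk
    omega
  refine ⟨_, _, H873.solves_split3 (Big := Big) (good := good) (t := t) (n0 := n0) (c0 := c0)
    (S := 100 + Sz) hn0 h1 (by omega)
    (fun x y => F.cost k₁ k₂ (len2 x y) (S x y) (Tp x y))
    (fun x y => F.N (len2 x y) + F.NS (len2 x y))
    (fun x y => F.e (len2 x y)) (fun x y => F.pfx (len2 x y))
    (fun x y l => F.fin St x y (VIS x y) (fun i => l.getD ((F.pfx (len2 x y)).length + i) 0))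
    ?_ ht ht0 ?_ hgood0 ?_⟩
  · intro x y E hn hR hS
    have hRR : (max x.length y.length + 2) ^ c1 ≤ E.R := by
      rw [hR]
      have := hpow (max x.length y.length) 1 (by omega)
      rwa [pow_one] at this
    have hF := hFits x y hn
    refine (hBig E x y (S x y) (Vb x y) _ Sz (Tp x y) (VIS x y) hF (hrun x y hn) hRR
      (by rw [hS]; omega) ?_ ?_).mono le_rfl ?_
    · refine (Nat.pow_le_pow_left hF.sm k₁).trans ?_
      rw [hR]
      exact hpow _ _ (by omega)
    · refine (Nat.pow_le_pow_left hF.sN k₂).trans ?_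
      rw [hR]
      exact hpow _ _ (by omega)
    · rintro s' ⟨h2, h3⟩
      refine ⟨h2, ?_⟩
      rw [h3]
      refine F.fin_congr St x y (VIS x y) fun i hi => ?_
      rw [feedG_getD _ _ _ _ hi]
  · intro x y hn
    obtain ⟨j, hj⟩ := he2 x y hn
    refine ⟨j, hj, ?_⟩
    rw [← hj]
    refine ((hFits x y hn).e1.trans (hFits x y hn).mR).trans
      (Nat.pow_le_pow_right (by omega) ?_)
    have h2 : c1 * 1 ≤ c1 * (k₁ + k₂ + 1) := Nat.mul_le_mul_left _ (by omega)
    have h3 : c0 * 1 ≤ c0 * (100 + Sz) := Nat.mul_le_mul_left _ (by omega)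
    omega
  · intro x y hn
    have h2 := hgood x y hn
    have h3 : ∀ c : Fin (F.N (len2 x y) + F.NS (len2 x y)) → Fin (F.e (len2 x y)),
        F.fin St x y (VIS x y)
          (fun i => (feedP (F.pfx (len2 x y)) c).getD ((F.pfx (len2 x y)).length + i) 0) =
        F.fin St x y (VIS x y) (ofFin c) := fun c =>
      F.fin_congr St x y (VIS x y) fun i _ => feedP_getD _ c i
    simp only [h3]
    exact h2

end Vale.Agent.P315.H486
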