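import Vale.Agent.P315.H486.Inst2
import Vale.Agent.P315.H731.Arr2
import Vale.Agent.P315.H36.VisL

/-!
# The multiplicative version: the feed of the main program and the array of the seeds

The feed of `main_solves2` is (prefix of numbers) ++ (seeds of the strategy) ++ (table of the
visible costs). The words of the array `arrOf c`: query words from `0` on, hubs from `N` on,
offsets from `N + q.s` on.
-/

set_option autoImplicit false

namespace Vale.Agent.P315.H486

open Vale.Agent.P315 Vale.Agent.P315.C Vale.Agent.P315.RAM Vale.Agent.P315.H36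
open Vale.Agent.Lib.PolyTime (Enc)
open Vale.Agent.P315.H659 (nSeed rndOf arrOf adXi adCoin adXi_lt adCoin_lt)
open Vale.Agent.P315.H142 (startVal Aof Bof served)

/-! ### Congruence -/

theorem ofFin_eq {N e : ℕ} (c : Fin N → Fin e) : ofFin c = arrOf c := rfl

/-- The random data use only the first `nSeed` words. -/
theorem rndOf_congr {n M S Cn J : ℕ} {a b : ℕ → ℕ} (h : ∀ i, i < nSeed n M S Cn → a i = b i) :
    rndOf n M S Cn J a = rndOf n M S Cn J b := by
  have e1 : (rndOf n M S Cn J a).xi = (rndOf n M S Cn J b).xi := by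
    funext l m
    show (if l < n + 1 ∧ m < M then a (adXi M l m) % (J + 1) else 0) =
      if l < n + 1 ∧ m < M then b (adXi M l m) % (J + 1) else 0
    split_ifs with hl
    · rw [h _ (lt_of_lt_of_le (adXi_lt hl.1 hl.2) (Nat.le_add_right _ _))]
    · rfl
  have e2 : (rndOf n M S Cn J a).coin = (rndOf n M S Cn J b).coin := by
    funext l s k
    show (if l < n + 1 ∧ s < S ∧ k < Cn then a (adCoin n M S Cn l s k) else 0) =
      if l < n + 1 ∧ s < S ∧ k < Cn then b (adCoin n M S Cn l s k) else 0
    split_ifs with hl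
    · rw [h _ (adCoin_lt hl.1 hl.2.1 hl.2.2)]
    · rfl
  cases hA : rndOf n M S Cn J a
  cases hB : rndOf n M S Cn J b
  rw [hA, hB] at e1 e2
  simp only at e1 e2
  rw [e1, e2]

theorem Aof_congr {P : Pm} {hub hub' : ℕ → ℕ} {i j s : ℕ} (h : ∀ t < s, hub t = hub' t) :
    Aof P hub i j s = Aof P hub' i j s := by
  induction s with
  | zero => rfl
  | succ s ih =>
    simp only [Aof]
    rw [ih (fun t ht => h t (by omega)), h s (by omega)]

theorem served_congr {P : Pm} {off off' : ℕ → ℕ} {R a Q : ℕ} (h : ∀ t < R, off t = off' t) :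
    served P R off a Q ↔ served P R off' a Q := by
  constructor
  · rintro ⟨t, ht, j, h1, h2, h3⟩
    rw [h t ht] at h2 h3
    exact ⟨t, ht, j, h1, h2, h3⟩
  · rintro ⟨t, ht, j, h1, h2, h3⟩
    rw [← h t ht] at h2 h3
    exact ⟨t, ht, j, h1, h2, h3⟩

theorem Bof_congr {P : Pm} {off off' : ℕ → ℕ} {R a Q : ℕ} (h : ∀ t < R, off t = off' t) :
    Bof P R off a Q = Bof P R off' a Q := by
  unfold Bof
  by_cases h1 : served P R off a Q
  · rw [if_pos h1, if_pos ((served_congr h).mp h1)]
  · rw [if_neg h1, if_neg (fun h2 => h1 ((served_congr h).mpr h2))]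

/-- The value of the base algorithm depends on the hubs `t < s` and the offsets `t < R` only. -/
theorem startVal_congr {P : Pm} {hub hub' off off' : ℕ → ℕ} {s R : ℕ}
    (h : ∀ t < s, hub t = hub' t) (h' : ∀ t < R, off t = off' t) :
    startVal P s hub R off = startVal P s hub' R off' := by
  unfold startVal
  have e1 : (fun i j => Aof P hub i j s) = fun i j => Aof P hub' i j s := by
    funext i j; exact Aof_congr h
  have e2 : Bof P R off = Bof P R off' := by
    funext a q; exact Bof_congr h'
  rw [e1, e2]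

theorem visE_congr {q : SP} {X Y hub hub' off off' : ℕ → ℕ} {t u t' v : ℕ}
    (h : ∀ i < q.s, hub i = hub' i) (h' : ∀ i < q.R, off i = off' i) :
    q.visE X Y hub off t u t' v = q.visE X Y hub' off' t u t' v := by
  unfold SP.visE
  rw [startVal_congr h h']

/-- The visible costs depend on the hubs `t < q.s` and the offsets `t < q.R` only. -/
theorem visM_congr {q : SP} {X Y hub hub' off off' : ℕ → ℕ} {l2 c0 : ℕ}
    (h : ∀ i < q.s, hub i = hub' i) (h' : ∀ i < q.R, off i = off' i) :
    H54.visM q X Y hub off l2 c0 = H54.visM q X Y hub' off' l2 c0 := by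
  funext i p r
  exact visE_congr h h'

theorem visL_congr {T : Tb} {q : SP} {X Y hub hub' off off' : ℕ → ℕ}
    (h : ∀ i < q.s, hub i = hub' i) (h' : ∀ i < q.R, off i = off' i) :
    visL T q X Y hub off = visL T q X Y hub' off' := by
  unfold visL
  refine List.map_congr_left fun a _ => ?_
  exact visE_congr h h'

/-! ### The feed -/

namespace MulF

variable (F : MulF)

/-- The feed of the strategy. -/
def feed (VIS : (ℕ → ℕ) → List ℕ) (p : ℕ × ℕ) (c : ℕ → ℕ) : List ℕ :=
  (F.pfx p ++ (List.range (F.N p)).map c) ++ VIS (sdL (F.N p) (F.NS p) c)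

theorem fin_eq {α : Type} [Enc α] (St : Strat α) (x y : List ℕ) (VIS : (ℕ → ℕ) → List ℕ)
    (c : ℕ → ℕ) : F.fin St x y VIS c = if ED x y ≤ F.kb (len2 x y) then ED x y
      else St.fin (F.ans x y) (F.Q (len2 x y)) (F.feed VIS (len2 x y) c) := rfl

theorem length_pfx (p : ℕ × ℕ) : (F.pfx p).length = F.rs.length := by
  simp [pfx, preOf]

variable {F} {VIS : (ℕ → ℕ) → List ℕ} {p : ℕ × ℕ}

theorem feed_pre (c : ℕ → ℕ) {i : ℕ} (hi : i < F.rs.length) :
    (F.feed VIS p c).getD i 0 = (F.pfx p).getD i 0 := by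
  have h1 : i < (F.pfx p ++ (List.range (F.N p)).map c).length := by
    rw [List.length_append, F.length_pfx]; omega
  unfold feed
  rw [List.getD_append _ _ _ _ h1, List.getD_append _ _ _ _ (by rw [F.length_pfx]; exact hi)]

theorem feed_seed (c : ℕ → ℕ) {i : ℕ} (hi : i < F.N p) :
    (F.feed VIS p c).getD (F.rs.length + i) 0 = c i := by
  have h1 : F.rs.length + i < (F.pfx p ++ (List.range (F.N p)).map c).length := by
    rw [List.length_append, F.length_pfx, List.length_map, List.length_range]; omega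
  unfold feed
  rw [List.getD_append _ _ _ _ h1,
    List.getD_append_right _ _ _ _ (by rw [F.length_pfx]; omega), F.length_pfx,
    Nat.add_sub_cancel_left, List.getD_eq_getElem?_getD,
    List.getElem?_eq_getElem (by simpa using hi)]
  simp

theorem feed_vis (c : ℕ → ℕ) (i : ℕ) :
    (F.feed VIS p c).getD (F.rs.length + F.N p + i) 0 =
      (VIS (sdL (F.N p) (F.NS p) c)).getD i 0 := by
  have h1 : (F.pfx p ++ (List.range (F.N p)).map c).length = F.rs.length + F.N p := by
    rw [List.length_append, F.length_pfx, List.length_map, List.length_range]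
  unfold feed
  rw [List.getD_append_right _ _ _ _ (by rw [h1]; omega), h1, Nat.add_sub_cancel_left]

theorem length_feed {c : ℕ → ℕ} (h : (VIS (sdL (F.N p) (F.NS p) c)).length = F.NV p) :
    (F.feed VIS p c).length = F.NF p := by
  unfold feed NF
  rw [List.length_append, List.length_append, F.length_pfx, List.length_map, List.length_range, h]

/-- The random data of the strategy, read from the feed. -/
theorem rnd_feed {n M S Cn J e : ℕ} (h : nSeed n M S Cn ≤ F.N p) (c : ℕ → ℕ) :
    rndOf n M S Cn J (fun i => (F.feed VIS p c).getD (F.rs.length + i) 0 % e) =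
      rndOf n M S Cn J (fun i => c (0 + i) % e) := by
  refine rndOf_congr fun i hi => ?_
  rw [feed_seed c (by omega), Nat.zero_add]

theorem sdL_of_lt {N NS : ℕ} (c : ℕ → ℕ) {t : ℕ} (ht : t < NS) : sdL N NS c t = c (N + t) :=
  if_pos ht

/-- The table, as a function of the seeds of the table. -/
noncomputable def visF (T : Tb) (q : SP) (x y : List ℕ) (sd : ℕ → ℕ) : List ℕ :=
  visL T q (fun i => x.getD i 0) (fun i => y.getD i 0) (fun t => sd t % q.M)
    (fun t => sd (q.s + t) % q.b)

/-- The table in the feed: hubs from `N` on, offsets from `N + q.s` on. -/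
theorem visF_sdL (T : Tb) (q : SP) (x y : List ℕ) {N NS : ℕ} (h : q.s + q.R ≤ NS) (c : ℕ → ℕ) :
    visF T q x y (sdL N NS c) =
      visL T q (fun i => x.getD i 0) (fun i => y.getD i 0) (q.hubOf N c) (q.offOf N c) := by
  refine visL_congr (fun i hi => ?_) (fun i hi => ?_)
  · show sdL N NS c i % q.M = c (N + i) % q.M
    rw [sdL_of_lt c (by omega)]
  · show sdL N NS c (q.s + i) % q.b = c (N + q.s + i) % q.b
    rw [sdL_of_lt c (by omega), Nat.add_assoc]

/-- The registers of the prefix. -/
def rs12 : List ℕ := [97, 98, 51, 50, 99, 102, 103, 104, 93, 105, 53, 74]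

/-- The prefix: twelve numbers. -/
theorem pfx12 (hrs : F.rs = rs12) (her : ∀ i ∈ [97, 98, 99, 102, 103, 104, 93, 105], i ∈ F.er)
    (p : ℕ × ℕ) : F.pfx p = [F.ext 97 p, F.ext 98 p, F.mu p, F.l p, F.ext 99 p, F.ext 102 p,
      F.ext 103 p, F.ext 104 p, F.ext 93 p, F.ext 105 p, F.D p, F.N p] := by
  unfold pfx preOf
  rw [hrs]
  have e1 := F.par_ext (her 97 (by simp))
  have e2 := F.par_ext (her 98 (by simp))
  have e3 := F.par_ext (her 99 (by simp))
  have e4 := F.par_ext (her 102 (by simp))
  have e5 := F.par_ext (her 103 (by simp))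
  have e6 := F.par_ext (her 104 (by simp))
  have e7 := F.par_ext (her 93 (by simp))
  have e8 := F.par_ext (her 105 (by simp))
  simp [rs12, e1, e2, e3, e4, e5, e6, e7, e8]

/-- **The feed of the main program for the seeds `c`.** -/
theorem feed_eq {T : Tb} {q : SP} {x y : List ℕ} (hrs : F.rs = rs12)
    (her : ∀ i ∈ [97, 98, 99, 102, 103, 104, 93, 105], i ∈ F.er)
    (hNS : q.s + q.R ≤ F.NS p) (c : ℕ → ℕ) :
    F.feed (visF T q x y) p c =
      ([F.ext 97 p, F.ext 98 p, F.mu p, F.l p, F.ext 99 p, F.ext 102 p,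
        F.ext 103 p, F.ext 104 p, F.ext 93 p, F.ext 105 p, F.D p, F.N p] ++
        (List.range (F.N p)).map c) ++
      visL T q (fun i => x.getD i 0) (fun i => y.getD i 0) (q.hubOf (F.N p) c)
        (q.offOf (F.N p) c) := by
  unfold feed
  rw [pfx12 hrs her, visF_sdL T q x y hNS]

/-! ### Counting -/

/-- **The counting hypothesis of `main_solves2`**: small distances are computed exactly. -/
theorem card_good {α : Type} [Enc α] (St : Strat α) {x y : List ℕ}
    (VIS : (ℕ → ℕ) → List ℕ) {good : ℕ → Prop} (h0 : good (ED x y))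
    (h : F.kb (len2 x y) < ED x y →
      2 * Nat.card (Fin (F.N (len2 x y) + F.NS (len2 x y)) → Fin (F.e (len2 x y))) ≤
        3 * Nat.card {c : Fin (F.N (len2 x y) + F.NS (len2 x y)) → Fin (F.e (len2 x y)) //
          good (St.fin (F.ans x y) (F.Q (len2 x y)) (F.feed VIS (len2 x y) (arrOf c)))}) :
    2 * Nat.card (Fin (F.N (len2 x y) + F.NS (len2 x y)) → Fin (F.e (len2 x y))) ≤
      3 * Nat.card {c : Fin (F.N (len2 x y) + F.NS (len2 x y)) → Fin (F.e (len2 x y)) //
        good (F.fin St x y VIS (ofFin c))} := by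
  by_cases hk : ED x y ≤ F.kb (len2 x y)
  · have e1 : Nat.card {c : Fin (F.N (len2 x y) + F.NS (len2 x y)) → Fin (F.e (len2 x y)) //
        good (F.fin St x y VIS (ofFin c))} =
        Nat.card (Fin (F.N (len2 x y) + F.NS (len2 x y)) → Fin (F.e (len2 x y))) :=
      Nat.card_congr (Equiv.subtypeUnivEquiv fun c => by rw [fin_eq, if_pos hk]; exact h0)
    rw [e1]
    omega
  · refine (h (by omega)).trans (Nat.mul_le_mul_left _ (le_of_eq ?_))
    refine Nat.card_congr (Equiv.subtypeEquivRight fun c => ?_)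
    rw [fin_eq, if_neg hk, ofFin_eq]

end MulF

end Vale.Agent.P315.H486
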