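import Vale.Agent.P315.H486.Params
import Vale.Agent.P315.H873.Glue3
import Vale.Agent.P315.H817.StCell

/-!
# The main program of the multiplicative version

Parameters (polynomial time functions of the two lengths) are computed into registers; the seeds go
to array `3` (with a prefix, reversed) and array `140`; the program `Pre` computes a table in array
`150`; the feed `prefix ++ seeds ++ table` is pushed on the memory word, the oracle loop with the
program `Cell` runs, and the output is compared with the banded dynamic program.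
-/

set_option autoImplicit false

namespace Vale.Agent.P315.H486

open Vale.Agent.P315 Vale.Agent.P315.RAM Vale.Agent.P315.H873 Vale.Agent.P315.H992
open Vale.Agent.Lib.PolyTime (Word pb pr FP PT Enc enc esize)

/-! ### Layout -/

/-- The layout of the memory word. -/
def Lm : Lay := ⟨200, 200, 101, 100⟩

theorem Lm_ok : Lm.Ok := ⟨by decide, by decide, by decide, by decide⟩

theorem places (W : ℕ) : Places Lm 60 190 191 W where
  ok := Lm_ok
  z1 := by decide
  z2 := by decide
  y2 := by decide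
  ya := Or.inl (by decide)
  A2 := by decide
  Aa := Or.inl (by decide)
  Ay := by decide

/-- Register numbers that can be used for parameters. -/
def RegOk (i : ℕ) : Prop :=
  2 < i ∧ i < 200 ∧ ¬ (62 ≤ i ∧ i ≤ 67) ∧ i ≠ 60 ∧ i ≠ 70 ∧ i ≠ 72 ∧ i ≠ 73 ∧ i ≠ 77 ∧ i ≠ 100 ∧
    i ≠ 101

instance (i : ℕ) : Decidable (RegOk i) := by unfold RegOk; infer_instance

/-- The lists of parameter registers. -/
structure RegsOk (regs : List ℕ) : Prop where
  ok : ∀ i ∈ regs, RegOk i
  h61 : 61 ∈ regs
  h68 : 68 ∈ regs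
  h69 : 69 ∈ regs
  h71 : 71 ∈ regs
  h74 : 74 ∈ regs
  h75 : 75 ∈ regs
  h76 : 76 ∈ regs
  h78 : 78 ∈ regs

/-- Inputs and parameters are in place. -/
structure Base (par : ℕ → Par → ℕ) (regs : List ℕ) (x y : List ℕ) (σ : State) : Prop where
  ax : σ.arr 0 = fun i => x.getD i 0
  ay : σ.arr 1 = fun i => y.getD i 0
  r0 : σ.reg 0 = x.length
  r1 : σ.reg 1 = y.length
  par : ∀ i ∈ regs, σ.reg i = par i (x.length, y.length)

/-- The program does not change the inputs and the parameters. -/
structure Quiet (regs : List ℕ) (P : Prog) : Prop where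
  r0 : 0 ∉ P.wr
  r1 : 1 ∉ P.wr
  rp : ∀ i ∈ regs, i ∉ P.wr
  a0 : 0 ∉ P.wa
  a1 : 1 ∉ P.wa
  a3 : 3 ∉ P.wa

theorem Base.frame {par : ℕ → Par → ℕ} {regs : List ℕ} {x y : List ℕ} {σ σ' : State}
    {wr wa : List ℕ} (h : Base par regs x y σ) (hf : Frame σ σ' wr wa) (h0 : 0 ∉ wr)
    (h1 : 1 ∉ wr) (hp : ∀ i ∈ regs, i ∉ wr) (ha0 : 0 ∉ wa) (ha1 : 1 ∉ wa) :
    Base par regs x y σ' :=
  ⟨(hf.arr 0 ha0).trans h.ax, (hf.arr 1 ha1).trans h.ay, (hf.reg 0 h0).trans h.r0,
    (hf.reg 1 h1).trans h.r1, fun i hi => (hf.reg i (hp i hi)).trans (h.par i hi)⟩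

theorem Base.quiet {par : ℕ → Par → ℕ} {regs : List ℕ} {x y : List ℕ} {σ σ' : State} {P : Prog}
    (h : Base par regs x y σ) (hf : Frame σ σ' P.wr P.wa) (hq : Quiet regs P) :
    Base par regs x y σ' := h.frame hf hq.r0 hq.r1 hq.rp hq.a0 hq.a1

/-- Frames with a condition on the written registers. -/
theorem Base.wr {par : ℕ → Par → ℕ} {regs : List ℕ} {x y : List ℕ} {σ σ' : State}
    {wr wa : List ℕ} (hr : RegsOk regs) (h : Base par regs x y σ) (hf : Frame σ σ' wr wa)
    (h0 : ∀ i ∈ wr, i = 2 ∨ 200 ≤ i ∨ (62 ≤ i ∧ i ≤ 67) ∨ i = 60 ∨ i = 70 ∨ i = 72 ∨ i = 73 ∨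
      i = 77 ∨ i = 100 ∨ i = 101) (ha : ∀ i ∈ wa, 2 ≤ i) : Base par regs x y σ' := by
  refine h.frame hf (fun hi => ?_) (fun hi => ?_) (fun i hi hi' => ?_) (fun hi => ?_)
    (fun hi => ?_)
  · have := h0 _ hi; omega
  · have := h0 _ hi; omega
  · have h1 := h0 _ hi'
    have h2 := hr.ok i hi
    unfold RegOk at h2
    omega
  · have := ha _ hi; omega
  · have := ha _ hi; omega

/-! ### The second group of seeds -/

/-- One seed in array `140`. -/
def seedCell : Prog :=
  .seq (.rand 73) (.seq (.put 140 (.reg 72) (emod (.reg 73) (.reg 71))) (.set 73 (.lit 0)))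

/-- The seeds in array `140`; their number is in register `76`, the modulus in register `71`. -/
def seedProg : Prog := .loop 72 (.reg 76) seedCell

theorem seedCell_spec {E : Env} {s : State} {t e : ℕ} (h71 : s.reg 71 = e) (h72 : s.reg 72 = t)
    (he : 0 < e) :
    Spec E s seedCell 8 (fun s' => s'.coins = s.coins + 1 ∧
      ∀ p, s'.arr 140 p = if p = t then E.ρ s.coins % e else s.arr 140 p) := by
  intro hb
  have hR := E.hR
  have hRN := E.R_lt_N
  have heR : e ≤ E.R := by rw [← h71]; exact hb.reg 71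
  have htR : t ≤ E.R := by rw [← h72]; exact hb.reg 72
  have hρ := E.hρ s.coins
  have hmod : E.ρ s.coins % e < e := Nat.mod_lt _ he
  have er : (seedCell.run E.ρ s).reg = fun k => if k = 73 then 0 else s.reg k := by
    funext k
    by_cases hk : k = 73
    · simp [seedCell, Prog.run, hk]
    · simp [seedCell, Prog.run, hk]
  have ea : ∀ j p, (seedCell.run E.ρ s).arr j p =
      if j = 140 ∧ p = t then E.ρ s.coins % e else s.arr j p := by
    intro j p
    simp [seedCell, Prog.run, Expr.eval, h71, h72]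
  refine ⟨⟨rfl, ?_⟩, ?_, ?_, ?_⟩
  · intro p
    rw [ea]
    simp
  · refine ⟨fun k => ?_, fun j hj p => ?_, fun p => ?_, fun p => ?_⟩
    · rw [er]; dsimp only; split_ifs; exacts [by omega, hb.reg k]
    · rw [ea]; split_ifs; exacts [by omega, hb.arr j hj p]
    · rw [ea, if_neg (by omega)]; exact hb.x p
    · rw [ea, if_neg (by omega)]; exact hb.y p
  · simp [seedCell, Prog.time, Expr.cost, emod]
  · simp only [seedCell, Prog.top, Expr.top, emod, Prog.run, State.setReg_reg, Op.eval,
      Expr.eval, h71, h72]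
    norm_num
    refine ⟨?_, ?_, ?_, ?_⟩ <;> omega

theorem seedProg_spec {E : Env} {s : State} {NS e : ℕ} (h76 : s.reg 76 = NS)
    (h71 : s.reg 71 = e) (he : 0 < e) :
    Spec E s seedProg (2 + NS * 10) (fun s' => s'.coins = s.coins + NS ∧
      ∀ p, p < NS → s'.arr 140 p = E.ρ (s.coins + p) % e) := by
  refine (Spec.loop0 (e := .reg 76) NS 8 (fun t s' => s'.coins = s.coins + t ∧
    ∀ p, p < t → s'.arr 140 p = E.ρ (s.coins + p) % e) rfl (by simpa using h76) (fun hb => ?_)
    (fun _ => ⟨by simp, fun p hp => absurd hp (Nat.not_lt_zero p)⟩) ?_).le (by simp [Expr.cost])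
  · rw [← h76]; exact hb.reg 76
  · rintro t ht s' hb hf ⟨i1, i2⟩
    have h71' : s'.reg 71 = e := by
      rw [hf.reg 71 (by simp [seedCell, Prog.wr])]; exact h71
    refine Spec.mono (seedCell_spec (t := t) (e := e) (by simpa using h71') (by simp) he)
      le_rfl ?_
    rintro s'' ⟨k1, k2⟩
    refine ⟨by rw [k1]; simp only [State.setReg_coins]; omega, fun p hp => ?_⟩
    rw [k2]
    simp only [State.setReg_coins, State.setReg_arr]
    by_cases hp' : p = t
    · rw [if_pos hp', i1, hp']
    · rw [if_neg hp']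
      exact i2 p (by omega)

/-! ### The feed -/

/-- Load a number of the feed into register `60`; its index is in register `66`. -/
def load : Prog :=
  .ite (elt (.reg 66) (.reg 75)) (.set 60 (.get 150 (esub (esub (.reg 75) (.lit 1)) (.reg 66))))
    (.set 60 (.get 3 (esub (.reg 66) (.reg 75))))

/-- The numbers of the feed in the order in which they are pushed. -/
def feedV (A B : List ℕ) (t : ℕ) : ℕ :=
  if t < B.length then B.getD (B.length - 1 - t) 0 else A.reverse.getD (t - B.length) 0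

theorem fed_feedV (A B : List ℕ) : fed (feedV A B) (A.length + B.length) = A ++ B := by
  rw [fed_eq]
  apply List.ext_getElem
  · simp
  · intro i h1 h2
    simp only [List.length_append] at h2
    rw [List.getElem_reverse, List.getElem_map, List.getElem_range]
    simp only [List.length_map, List.length_range]
    unfold feedV
    rw [List.getElem_append]
    split_ifs with h3 h4 h4
    · omega
    · have h5 : B.length - 1 - (A.length + B.length - 1 - i) = i - A.length := by omega
      rw [h5, List.getD_eq_getElem?_getD, List.getElem?_eq_getElem (by omega), Option.getD_some]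
    · have h5 : A.length + B.length - 1 - i - B.length < A.reverse.length := by
        rw [List.length_reverse]; omega
      rw [List.getD_eq_getElem?_getD, List.getElem?_eq_getElem h5, Option.getD_some,
        List.getElem_reverse]
      congr 1
      omega
    · omega

theorem feedV_mem {A B : List ℕ} {t : ℕ} (ht : t < A.length + B.length) :
    feedV A B t ∈ A ++ B := by
  unfold feedV
  split_ifs with h
  · have h1 : B.length - 1 - t < B.length := by omega
    rw [List.getD_eq_getElem?_getD, List.getElem?_eq_getElem h1, Option.getD_some]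
    exact List.mem_append_right _ (List.getElem_mem h1)
  · have h1 : t - B.length < A.reverse.length := by rw [List.length_reverse]; omega
    rw [List.getD_eq_getElem?_getD, List.getElem?_eq_getElem h1, Option.getD_some]
    exact List.mem_append_left _ (List.mem_reverse.mp (List.getElem_mem h1))

/-- The invariant of the window: `t = 1` after the output is stored. -/
def JJ (par : ℕ → Par → ℕ) (regs : List ℕ) (x y A B : List ℕ) (o : ℕ) (t : ℕ) (σ : State) :
    Prop :=
  Base par regs x y σ ∧ σ.reg 70 = 1 ∧ (∀ j, j < A.length → σ.arr 3 j = A.reverse.getD j 0) ∧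
    (∀ j, j < B.length → σ.arr 150 j = B.getD j 0) ∧ (t = 1 → σ.reg 2 = o)

theorem JJ_stable {par : ℕ → Par → ℕ} {regs : List ℕ} {x y A B : List ℕ} {o W : ℕ}
    (hr : RegsOk regs) (t : ℕ) : Stable Lm 60 190 W (JJ par regs x y A B o t) := by
  rintro σ σ' h1 h2 ⟨j1, j2, j3, j4, j5⟩
  have hreg : ∀ i, (i < 3 ∨ i = 70 ∨ i ∈ regs) → σ'.reg i = σ.reg i := by
    intro i hi
    apply h1
    unfold OReg
    show ¬ (i = 60 ∨ (60 + 2 ≤ i ∧ i ≤ 60 + 6) ∨ i = 100 ∨ i = 101 ∨ (200 ≤ i ∧ i ≤ 200 + W))
    rcases hi with hi | hi | hi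
    · omega
    · omega
    · have := hr.ok i hi
      unfold RegOk at this
      omega
  have harr : ∀ j, j < 190 → σ'.arr j = σ.arr j := by
    intro j hj
    apply h2
    unfold OArr
    show ¬ (j = 190 ∨ (200 ≤ j ∧ j ≤ 200 + W))
    omega
  refine ⟨⟨?_, ?_, ?_, ?_, fun i hi => ?_⟩, ?_, ?_, ?_, ?_⟩
  · rw [harr 0 (by omega)]; exact j1.ax
  · rw [harr 1 (by omega)]; exact j1.ay
  · rw [hreg 0 (by omega)]; exact j1.r0
  · rw [hreg 1 (by omega)]; exact j1.r1
  · rw [hreg i (Or.inr (Or.inr hi))]; exact j1.par i hi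
  · rw [hreg 70 (by omega)]; exact j2
  · rw [harr 3 (by omega)]; exact j3
  · rw [harr 150 (by omega)]; exact j4
  · intro ht; rw [hreg 2 (by omega)]; exact j5 ht

theorem load_spec {par : ℕ → Par → ℕ} {regs : List ℕ} {x y A B : List ℕ} {o : ℕ}
    (hr : RegsOk regs) {E : Env} {σ : State} {t : ℕ} (hJ : JJ par regs x y A B o 0 σ)
    (hB : B.length = par 75 (x.length, y.length)) (h66 : σ.reg 66 = t)
    (ht : t < A.length + B.length) (hv : feedV A B t ≤ E.R) :
    Spec E σ load 12 (fun σ' => JJ par regs x y A B o 0 σ' ∧ σ'.reg 60 = feedV A B t) := by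
  have h75 : σ.reg 75 = B.length := by rw [hB]; exact hJ.1.par 75 hr.h75
  have hst : JJ par regs x y A B o 0 (σ.setReg 60 (feedV A B t)) := by
    refine JJ_stable (W := 0) hr 0 σ _ (fun i hi => ?_) (fun j _ => rfl) hJ
    rw [State.setReg_reg, if_neg]
    rintro rfl
    exact hi (Or.inl rfl)
  have hev : (elt (.reg 66) (.reg 75)).eval σ = if t < B.length then 1 else 0 := by
    rw [elt_eval, reg_eval, reg_eval, h66, h75]
  refine (Spec.ite0 (c := 7) rfl (fun h => ?_) (fun h => ?_)).le (by simp [elt, Expr.cost])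
  · have h1 : ¬ t < B.length := by
      intro h2; rw [hev, if_pos h2] at h; exact one_ne_zero h
    refine (Spec.set0 (feedV A B t) rfl ?_ (fun _ => hv) fun _ => ⟨hst, by simp⟩).le
      (by simp [esub, Expr.cost])
    rw [get_eval, esub_eval, reg_eval, reg_eval, h66, h75, hJ.2.2.1 _ (by omega)]
    unfold feedV
    rw [if_neg h1]
  · have h1 : t < B.length := by
      by_contra h2; rw [hev, if_neg h2] at h; exact h rfl
    refine (Spec.set0 (feedV A B t) rfl ?_ (fun _ => hv) fun _ => ⟨hst, by simp⟩).le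
      (by simp [esub, Expr.cost])
    rw [get_eval, esub_eval, esub_eval, reg_eval, reg_eval, lit_eval, h66, h75,
      hJ.2.2.2.1 _ (by omega)]
    unfold feedV
    rw [if_pos h1]

/-! ### The end -/

/-- Comparison with the banded dynamic program. -/
def endProg : Prog :=
  .seq (.set 14 (.reg 78)) (.seq (band 77)
    (.ite (elt (.reg 78) (.reg 77)) (.set 77 (.lit 0)) (.set 2 (.reg 77))))

theorem endProg_spec {E : Env} {s : State} {x y : List ℕ} {kb o : ℕ}
    (h0 : s.arr 0 = fun i => x.getD i 0) (h1 : s.arr 1 = fun i => y.getD i 0)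
    (hr0 : s.reg 0 = x.length) (hr1 : s.reg 1 = y.length) (h78 : s.reg 78 = kb)
    (h2 : s.reg 2 = o) (hk : kb + 1 ≤ E.R) (hly : y.length + 1 ≤ E.R) :
    Spec E s endProg (360 * ((x.length + y.length + 1) * (kb + 1)) + 8)
      (fun s' => s'.reg 2 = if ED x y ≤ kb then ED x y else o) := by
  unfold endProg
  refine (Spec.seq0 2 (360 * ((x.length + y.length + 1) * (kb + 1)) + (4 + 2))
    (fun s' => s' = s.setReg 14 kb) (Spec.set1 kb rfl (by simp [Expr.cost])
      (by simpa using h78) (fun _ => by omega) fun _ => rfl) ?_).le (by omega)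
  rintro s1 - rfl
  refine Spec.seq0 _ _ _ ((band_spec' (x := x) (y := y) (k := kb) (r := 77)
    (n := x.length + y.length) (by simpa using h0) (by simpa using h1) (by simpa using hr0)
    (by simpa using hr1) (by simp) hk hly (by omega) (by omega)).withFrame) ?_
  rintro s2 - ⟨hf, h77⟩
  have g78 : s2.reg 78 = kb := by
    rw [hf.reg 78 (by rw [band_wr]; decide)]; simpa using h78
  have g2 : s2.reg 2 = o := by
    rw [hf.reg 2 (by rw [band_wr]; decide)]; simpa using h2
  refine (Spec.ite0 (c := 2) rfl (fun h => ?_) (fun h => ?_)).le (by simp [elt, Expr.cost])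
  · have h3 : ¬ kb < min (ED x y) (kb + 1) := by
      intro h4
      rw [elt_eval, reg_eval, reg_eval, g78, h77, if_pos h4] at h
      exact one_ne_zero h
    have h5 : ED x y ≤ kb := by omega
    refine (Spec.set0 (ED x y) rfl ?_ (fun hb => ?_) fun _ => ?_).le (by simp [Expr.cost])
    · rw [reg_eval, h77]; omega
    · omega
    · simp [h5]
  · have h3 : kb < min (ED x y) (kb + 1) := by
      by_contra h4
      rw [elt_eval, reg_eval, reg_eval, g78, h77, if_neg h4] at h
      exact h rfl
    have h5 : ¬ ED x y ≤ kb := by omega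
    refine (Spec.set0 0 rfl rfl (fun _ => by omega) fun _ => ?_).le (by simp [Expr.cost])
    simp [h5, g2]

/-! ### The main program -/

/-- The program. -/
def main2 (Pp Win Pre : Prog) (rs : List ℕ) : Prog :=
  .seq (pushPar Lm 60 190) (.seq Pp (.seq (.set 70 (.reg 74)) (.seq (feedProg2 rs)
    (.seq seedProg (.seq Pre (.seq (.set 70 (.lit 1)) (.seq Win endProg)))))))

/-- The seeds of the second group: `0` from `NS` on. -/
def sd2 (ρ : ℕ → ℕ) (N NS e : ℕ) (i : ℕ) : ℕ := if i < NS then ρ (N + i) % e else 0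

/-- The prefix of the feed. -/
def preOf (par : ℕ → Par → ℕ) (rs : List ℕ) (p : Par) : List ℕ :=
  rs.map fun r => if r = 0 then p.1 else if r = 1 then p.2 else par r p

section
variable {α : Type*} [Enc α]

/-- The output of the strategy on a feed. -/
def outF (start : List ℕ → α) (ask : α → ℕ) (upd : ℕ × α → α) (out : α → ℕ)
    (ans : ℕ → List ℕ) (Q : ℕ) (F : List ℕ) : ℕ := out ((oround ask upd ans)^[Q] (start F))

/-- The size conditions for the run of the strategy on the feed `F`. -/
structure RunOk (start : List ℕ → α) (ask : α → ℕ) (upd : ℕ × α → α) (out : α → ℕ)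
    (ans : ℕ → List ℕ) (V : ℕ → Prop) (Q S R : ℕ) (F : List ℕ) : Prop where
  valid : ∀ t, t < Q → V (ask ((oround ask upd ans)^[t] (start F)))
  size : ∀ t, t < Q → ∀ j ≤ (ans (ask ((oround ask upd ans)^[t] (start F)))).length,
    esize (absorb upd ((ans (ask ((oround ask upd ans)^[t] (start F)))).take j)
      ((oround ask upd ans)^[t] (start F))) ≤ S
  last : esize ((oround ask upd ans)^[Q] (start F)) ≤ S
  out : outF start ask upd out ans Q F ≤ R

/-- The main program of the multiplicative version. The exponent `k₂` depends only on the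
strategy. -/
theorem exists_main2 {start : List ℕ → α} {ask : α → ℕ} {upd : ℕ × α → α} {out : α → ℕ}
    (hstart : PT ∅ start) (hask : PT ∅ ask) (hupd : PT ∅ upd) (hout : PT ∅ out) :
    ∃ k₂ : ℕ, ∀ (par : ℕ → Par → ℕ) (regs : List ℕ), (∀ i ∈ regs, PT ∅ (par i)) →
    RegsOk regs → ∀ (rs : List ℕ), (∀ r ∈ rs, r = 0 ∨ r = 1 ∨ r ∈ regs) →
    ∀ (Pre Cell : Prog), Quiet regs Pre → Quiet regs Cell → 70 ∉ Cell.wr → 200 ∉ Cell.wr →
      200 ∉ Cell.wa → 150 ∉ Cell.wa →
    ∃ (k₁ : ℕ) (P : Prog), ∀ (E : Env) (x y : List ℕ) (p : Par), p = (x.length, y.length) →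
      0 < par 71 p → (∀ i ∈ regs, par i p ≤ E.R) → 2 ^ par 61 p ≤ E.R → ∀ (S ℓ Tc Tp : ℕ)
      (VIS : List ℕ)
      (V : ℕ → Prop) (ans : ℕ → List ℕ), par 69 p = rs.length + par 74 p + par 75 p →
      VIS.length = par 75 p →
      (∀ v ∈ feedG E.ρ 0 (par 71 p) (par 74 p) (preOf par rs p) ++ VIS, v < 2 ^ par 61 p) →
      (∀ σ, Base par regs x y σ →
        (∀ i, i < par 76 p → σ.arr 140 i = E.ρ (par 74 p + i) % par 71 p) →
        Spec E σ Pre Tp (fun σ' => ∀ j, j < par 75 p → σ'.arr 150 j = VIS.getD j 0)) →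
      (∀ q, V q → q ≤ E.R ∧ (ans q).length ≤ ℓ ∧ ∀ v ∈ ans q, v < 2 ^ par 61 p) →
      (∀ σ q, Base par regs x y σ → σ.reg 60 = q → V q → Spec E σ Cell Tc (fun σ' =>
        σ'.reg 67 = (ans q).length ∧
          ∀ i, i < (ans q).length → σ'.arr 191 i = (ans q).getD i 0)) →
      RunOk start ask upd out ans V (par 68 p) S E.R
        (feedG E.ρ 0 (par 71 p) (par 74 p) (preOf par rs p) ++ VIS) →
      4 * (p.1 + p.2 + 2) ≤ E.R → (esize (obj p) + 2) ^ k₁ ≤ E.R →
      par 74 p + rs.length ≤ E.R → par 78 p + 1 ≤ E.R →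
      (par 69 p * (2 * par 61 p + 1) + S + 2 * par 61 p + 10) ^ k₂ ≤ E.R →
      Spec E (State.init x y) P
        (Tp + par 68 p * (Tc + (ℓ + 1) * (S + 2 * par 61 p + 10) ^ k₂) +
          360 * ((p.1 + p.2 + 1) * (par 78 p + 1)) + 82 * (p.1 + p.2) +
          (esize (obj p) + 2) ^ k₁ + 14 * par 74 p + 7 * rs.length + 10 * par 76 p +
          par 69 p * (41 * par 61 p + 40) +
          3 * (par 69 p * (2 * par 61 p + 1) + S + 2 * par 61 p + 10) ^ k₂ + 200)
        (fun s' => par 74 p + par 76 p ≤ s'.coins ∧ s'.reg 2 =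
          if ED x y ≤ par 78 p then ED x y else outF start ask upd out ans (par 68 p)
            (feedG E.ρ 0 (par 71 p) (par 74 p) (preOf par rs p) ++ VIS)) := by
  obtain ⟨W2, k2, Win, hWin, hWins⟩ := exists_window (out := fun q : ℕ × α => out q.2) hstart
    hask hupd (hout.comp PT.snd')
  refine ⟨k2 + 1, fun par regs hpar hr rs hrs Pre Cell hPre hCell hC70 hCr hCa hCb => ?_⟩
  obtain ⟨W1, k1, Pp, hPp, hPn, hPps⟩ := exists_params par regs hpar
  refine ⟨k1, main2 (Pp Lm 60) (Win Lm 60 190 191 load Cell (.set 2 (.reg 60))) Pre rs, ?_⟩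
  intro E x y p hp he hpR hmR S ℓ Tc Tp VIS V ans hNF hVIS hlt hPreS hans hCellS hrun hR1 hR2
    hR3 hR4 hR5
  have hp1 : p.1 = x.length := by rw [hp]
  have hp2 : p.2 = y.length := by rw [hp]
  set X1 := esize (obj p) + 2 with hX1
  set m := par 61 p with hm
  set Q := par 68 p with hQ
  set NF := par 69 p with hNFd
  set e := par 71 p with hed
  set N := par 74 p with hN
  set NV := par 75 p with hNV
  set NS := par 76 p with hNS
  set kb := par 78 p with hkb
  set pre := preOf par rs p with hpre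
  set A := feedG E.ρ 0 e N pre with hA
  have hAlen : A.length = rs.length + N := by rw [hA, feedG_length, hpre]; simp [preOf]
  set X := NF * (2 * m + 1) + S + 2 * m + 10 with hX
  have hk2 : X ^ k2 ≤ X ^ (k2 + 1) := Nat.pow_le_pow_right (by omega) (by omega)
  have hk3 : (S + 2 * m + 10) ^ k2 ≤ (S + 2 * m + 10) ^ (k2 + 1) :=
    Nat.pow_le_pow_right (by omega) (by omega)
  have hk4 : (S + 2 * m + 10) ^ (k2 + 1) ≤ X ^ (k2 + 1) := Nat.pow_le_pow_left (by omega) _
  have hXR : X ≤ E.R := (Nat.le_self_pow (by omega) X).trans hR5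
  set o := outF start ask upd out ans Q (A ++ VIS) with ho
  have hrsne : ∀ r ∈ rs, r ≠ 70 ∧ r ≠ 72 ∧ r ≠ 73 := by
    intro r hr'
    rcases hrs r hr' with h | h | h
    · omega
    · omega
    · have := hr.ok r h
      unfold RegOk at this
      omega
  -- the rest of the program after the seeds
  have hrest : ∀ σ, Base par regs x y σ →
      (∀ i, i < NS → σ.arr 140 i = E.ρ (N + i) % e) →
      (∀ i, i < A.length → σ.arr 3 i = A.reverse.getD i 0) →
      Spec E σ (.seq Pre (.seq (.set 70 (.lit 1))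
        (.seq (Win Lm 60 190 191 load Cell (.set 2 (.reg 60))) endProg)))
        (Tp + (2 + ((NF * (12 + (41 * m + 22)) + Q * (Tc + (ℓ + 1) * (S + 2 * m + 10) ^ k2) +
          1 * (2 + (S + 2 * m + 10) ^ k2) + X ^ k2) +
          (360 * ((x.length + y.length + 1) * (kb + 1)) + 8))))
        (fun s' => s'.reg 2 = if ED x y ≤ kb then ED x y else o) := by
    intro σ hb h140 h3
    refine Spec.seq0 Tp _ _ ((hPreS σ hb h140).withFrame) ?_
    rintro σ1 - ⟨hf1, h4⟩
    have hb1 : Base par regs x y σ1 := hb.quiet hf1 hPre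
    have h31 : ∀ i, i < A.length → σ1.arr 3 i = A.reverse.getD i 0 := fun i hi => by
      rw [hf1.arr 3 hPre.a3]; exact h3 i hi
    refine Spec.seq0 2 _ (fun σ' => σ' = σ1.setReg 70 1) (Spec.set1 1 rfl (by simp [Expr.cost])
      rfl (fun _ => by have := E.hR; omega) fun _ => rfl) ?_
    rintro σ2 hf2 rfl
    have hb2 : Base par regs x y (σ1.setReg 70 1) := hb1.wr hr hf2
      (fun i hi => by simp [Prog.wr] at hi; omega) (fun i hi => by simp [Prog.wa] at hi)
    have hJ0 : JJ par regs x y A VIS o 0 (σ1.setReg 70 1) :=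
      ⟨hb2, by simp, h31, fun j hj => h4 j (by omega), fun h => absurd h (by omega)⟩
    have hfed : fed (feedV A VIS) NF = A ++ VIS := by
      rw [show NF = A.length + VIS.length by omega]
      exact fed_feedV A VIS
    have hvm : ∀ t, t < NF → feedV A VIS t < 2 ^ m := fun t ht =>
      hlt _ (feedV_mem (by omega))
    refine Spec.seq0 _ _ _ (hWins Lm 60 190 191 (places W2) E (JJ par regs x y A VIS o)
      (fun t => JJ_stable hr t) m S ℓ NF 1 Q 12 Tc 2 (feedV A VIS) V ans load Cell
      (.set 2 (.reg 60)) (by decide) (by decide) hCr hCa (by decide) (by decide)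
      (fun t σ' hj => by rw [hj.1.par 61 hr.h61, ← hp]) (fun σ' hj => by
        rw [hj.1.par 68 hr.h68, ← hp]) (fun σ' hj => by rw [hj.1.par 69 hr.h69, ← hp])
      (fun σ' hj => hj.2.1) hvm ?_ hans ?_ ?_ ?_ ?_ ?_ ?_ ?_ (hk2.trans hR5) _ hJ0) ?_
    · intro σ' t hj h66 ht
      exact load_spec hr hj (by rw [hVIS, ← hp]) h66 (by omega) ((hvm t ht).le.trans hmR)
    · intro σ' q hj h60 hq
      refine ((hCellS σ' q hj.1 h60 hq).withFrame).mono le_rfl ?_
      rintro σ'' ⟨hf, h67, hans'⟩
      refine ⟨⟨hj.1.quiet hf hCell, ?_, fun j hj' => ?_, fun j hj' => ?_, fun h => ?_⟩, h67,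
        hans'⟩
      · rw [hf.reg 70 hC70]; exact hj.2.1
      · rw [hf.arr 3 hCell.a3]; exact hj.2.2.1 j hj'
      · rw [hf.arr 150 hCb]; exact hj.2.2.2.1 j hj'
      · exact absurd h (by omega)
    · rw [hfed]; exact hrun.valid
    · rw [hfed]; exact hrun.size
    · rw [hfed]; exact hrun.last
    · exact Nat.one_le_two_pow
    · intro t _
      rw [hfed]; exact hrun.out
    · intro σ' t hj h60 _ ht
      obtain rfl : t = 0 := by omega
      rw [hfed] at h60
      have h60' : σ'.reg 60 = o := h60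
      refine (Spec.set0 o rfl (by rw [reg_eval]; exact h60') (fun _ => hrun.out) fun _ => ?_).le (by simp [Expr.cost])
      have hb' : Base par regs x y (σ'.setReg 2 o) := hj.1.wr hr (frame_setReg σ' 2 o)
        (fun i hi => by simp at hi; omega) (fun i hi => by simp at hi)
      refine ⟨hb', ?_, hj.2.2.1, hj.2.2.2.1, fun _ => by simp⟩
      rw [State.setReg_reg, if_neg (by omega)]
      exact hj.2.1
    rintro σ3 - hJ1
    refine (endProg_spec (x := x) (y := y) (kb := kb) (o := o) hJ1.1.ax hJ1.1.ay hJ1.1.r0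
      hJ1.1.r1 (by rw [hJ1.1.par 78 hr.h78, ← hp]) (hJ1.2.2.2.2 rfl) hR4 (by omega))
  -- the first part
  set s0 := State.init x y with hs0
  have i0 : s0.arr 0 = fun i => x.getD i 0 := by simp [hs0, State.init]
  have i1 : s0.arr 1 = fun i => y.getD i 0 := by simp [hs0, State.init]
  have i2 : s0.reg 0 = x.length := by simp [hs0, State.init]
  have i3 : s0.reg 1 = y.length := by simp [hs0, State.init]
  have i4 : s0.coins = 0 := rfl
  refine (Spec.seq0 (82 * (p.1 + p.2) + 60) _ _ ((pushPar_spec (E := E) Lm_ok (z := 60) (y := 190)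
    (by omega) (by decide) (by omega) (by decide) (p := p) s0 (by rw [i2, hp1])
    (by rw [i3, hp2]) hR1).withCoins (pushPar_norand _ _ _)) ?_).le (?_ :
      82 * (p.1 + p.2) + 60 + (X1 ^ k1 + (2 + ((14 * N + 7 * rs.length + 6) +
        ((2 + NS * 10) + (Tp + (2 + ((NF * (12 + (41 * m + 22)) + Q * (Tc + (ℓ + 1) *
          (S + 2 * m + 10) ^ k2) + 1 * (2 + (S + 2 * m + 10) ^ k2) + X ^ k2) +
          (360 * ((x.length + y.length + 1) * (kb + 1)) + 8)))))))) ≤ _)
  swap
  · have a1 : Q * (Tc + (ℓ + 1) * (S + 2 * m + 10) ^ k2) ≤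
        Q * (Tc + (ℓ + 1) * (S + 2 * m + 10) ^ (k2 + 1)) :=
      Nat.mul_le_mul_left _ (Nat.add_le_add_left (Nat.mul_le_mul_left _ hk3) _)
    have a2 : NF * (12 + (41 * m + 22)) ≤ NF * (41 * m + 40) :=
      Nat.mul_le_mul_left _ (by omega)
    have a3 : (p.1 + p.2 + 1) * (kb + 1) = (x.length + y.length + 1) * (kb + 1) := by
      rw [hp1, hp2]
    rw [a3]
    omega
  rintro σ1 hf1 ⟨c1, m1⟩
  refine Spec.seq0 _ _ _ ((hPps Lm Lm_ok 60 (by decide) (fun i hi => ?_) E σ1 p m1
    hR2 hpR).withCoins (hPn Lm 60)) ?_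
  · have := hr.ok i hi
    unfold RegOk at this
    refine ⟨this.2.1, this.2.2.2.1, by omega, by show i ≠ 100; omega, by show i ≠ 101; omega⟩
  rintro σ2 hf2 ⟨c2, -, h2⟩
  have hb2 : Base par regs x y σ2 := by
    have w1 : ∀ i, i < 2 → i ∉ (pushPar Lm 60 190).wr := fun i hi h => by
      have := pushPar_wr i h
      have h200 : Lm.r = 200 := rfl
      omega
    have w2 : ∀ i, i < 2 → i ∉ (Pp Lm 60).wr := fun i hi h => by
      rcases (hPp Lm 60).1 i h with h | h | h | h | h | h
      · omega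
      · omega
      · have : Lm.c = 100 := rfl
        omega
      · have : Lm.B = 101 := rfl
        omega
      · have : Lm.r = 200 := rfl
        omega
      · have := hr.ok i h
        unfold RegOk at this
        omega
    have w3 : ∀ i, i < 2 → i ∉ (pushPar Lm 60 190).wa := fun i hi h => by
      have := pushPar_wa i h
      have h200 : Lm.a = 200 := rfl
      omega
    have w4 : ∀ i, i < 2 → i ∉ (Pp Lm 60).wa := fun i hi h => by
      have := (hPp Lm 60).2 i h
      have h200 : Lm.a = 200 := rfl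
      omega
    refine ⟨?_, ?_, ?_, ?_, fun i hi => by rw [h2 i hi, hp]⟩
    · rw [hf2.arr 0 (w4 0 (by omega)), hf1.arr 0 (w3 0 (by omega)), i0]
    · rw [hf2.arr 1 (w4 1 (by omega)), hf1.arr 1 (w3 1 (by omega)), i1]
    · rw [hf2.reg 0 (w2 0 (by omega)), hf1.reg 0 (w1 0 (by omega)), i2]
    · rw [hf2.reg 1 (w2 1 (by omega)), hf1.reg 1 (w1 1 (by omega)), i3]
  have c2' : σ2.coins = 0 := by rw [c2, c1, i4]
  have h74 : σ2.reg 74 = N := h2 74 hr.h74
  refine Spec.seq0 2 _ (fun σ' => σ' = σ2.setReg 70 N) (Spec.set1 N rfl (by simp [Expr.cost])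
    (by simpa using h74) (fun _ => by omega) fun _ => rfl) ?_
  rintro σ3 hf3 rfl
  have hb3 : Base par regs x y (σ2.setReg 70 N) := hb2.wr hr hf3
    (fun i hi => by simp [Prog.wr] at hi; omega) (fun i hi => by simp [Prog.wa] at hi)
  have hpre3 : rs.map (σ2.setReg 70 N).reg = pre := by
    rw [hpre]
    unfold preOf
    refine List.map_congr_left fun r hr' => ?_
    rcases hrs r hr' with h | h | h
    · rw [if_pos h, h, hb3.r0, hp1]
    · have h0 : r ≠ 0 := by omega
      rw [if_neg h0, if_pos h, h, hb3.r1, hp2]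
    · have h0 := hr.ok r h
      unfold RegOk at h0
      rw [if_neg (by omega), if_neg (by omega), hb3.par r h, ← hp]
  have h71 : (σ2.setReg 70 N).reg 71 = e := by rw [hb3.par 71 hr.h71, ← hp]
  refine Spec.seq0 _ _ _ (feedProg2_spec (E := E) (s := σ2.setReg 70 N) (N := N) (e := e)
    (rs := rs) (by simp) h71 he hR3 (fun r hr' => (hrsne r hr').2)) ?_
  rintro σ4 hf4 ⟨c4, h4⟩
  rw [hpre3] at h4
  have c3 : (σ2.setReg 70 N).coins = 0 := c2'
  rw [c3] at c4 h4
  have hb4 : Base par regs x y σ4 := hb3.wr hr hf4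
    (fun i hi => by have := feedProg2_wr rs i hi; omega)
    (fun i hi => by have := feedProg2_wa rs i hi; omega)
  refine Spec.seq0 _ _ _ (seedProg_spec (E := E) (s := σ4) (NS := NS) (e := e)
    (by rw [hb4.par 76 hr.h76, ← hp]) (by rw [hb4.par 71 hr.h71, ← hp]) he) ?_
  rintro σ5 hf5 ⟨c5, h5⟩
  have hb5 : Base par regs x y σ5 := hb4.wr hr hf5
    (fun i hi => by simp [seedProg, seedCell, Prog.wr] at hi; omega)
    (fun i hi => by simp [seedProg, seedCell, Prog.wa] at hi; omega)
  have e5 : σ4.coins = N := by rw [c4]; omega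
  rw [e5] at c5 h5
  refine ((hrest σ5 hb5 h5 (fun i hi => ?_)).leCoins).mono le_rfl ?_
  · rw [hf5.arr 3 (by simp [seedProg, seedCell, Prog.wa])]
    exact h4 i (by rw [List.length_reverse]; exact hi)
  · rintro s' ⟨q1, q2⟩
    exact ⟨by omega, q2⟩

end

end Vale.Agent.P315.H486
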