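import Vale.Agent.P315.RAM.Window
import Vale.Agent.P315.Main

/-!
# The simulation uses no random words

Variants of `exists_fun` and `exists_read` with the additional information that the programs use no
random words.
-/

set_option autoImplicit false

namespace Vale.Agent.P315.H486

open Vale.Agent.P315 Vale.Agent.P315.RAM
open Vale.Agent.Lib.PolyTime (Word pb pr FP PT Enc enc esize)

variable {E : Env}

theorem tr_norand (L : Lay) (p : SProg) : (tr L p).norand = true := by
  induction p with
  | skip => rfl
  | push i b => rfl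
  | pop i => rfl
  | query i j => rfl
  | seq p q ihp ihq => simp [tr, Prog.norand, ihp, ihq]
  | ite i p q r ihp ihq ihr => simp [tr, Prog.norand, ihp, ihq, ihr]
  | loop i p ih => simp [tr, Prog.norand, ih]

theorem clr_norand (L : Lay) (k : ℕ) : (clr L k).norand = true := by
  induction k with
  | zero => rfl
  | succ k ih => simp [clr, Prog.norand, ih]

theorem pw_norand (L : Lay) (k : ℕ) : (pw L k).norand = true := by
  induction k with
  | zero => rfl
  | succ k ih => simp [pw, Prog.norand, ih]

theorem block_norand (p : SProg) (W c : ℕ) (L : Lay) : (block p W c L).norand = true := by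
  simp [block, Prog.norand, tr_norand, clr_norand, pw_norand]

theorem pushNat_norand (z y j k : ℕ) : (pushNat z y j k).norand = true := rfl

/-- Every polynomial time function on words is computed by a block of the word RAM: the input is
on stack `0`, the output is written on stack `1`, in polynomial time. -/
theorem exists_fun' {f : Word → Word} (hf : FP ∅ f) :
    ∃ (W k : ℕ) (P : Lay → Prog), 1 ≤ W ∧ Fits P W ∧ (∀ L, (P L).norand = true) ∧
      ∀ (L : Lay), L.Ok → ∀ (E : Env) (σ : State) (x : Word), Holds σ L.a L.r x →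
        (x.length + 2) ^ k ≤ E.R →
        Spec E σ (P L) ((x.length + 2) ^ k)
          (fun σ' => Holds σ' L.a L.r x ∧ Holds σ' (L.a + 1) (L.r + 1) (f x)) := by
  obtain ⟨p, w, c, hw, hp⟩ := hf
  obtain ⟨W, hW⟩ := exists_below p
  set W' := max w W with hW'
  have hpW : below (W' + 1) p := hW.mono (by omega)
  obtain ⟨k, hk⟩ := cst_le p
  -- the exponent of the final bound
  have hPB : Vale.Agent.Lib.PolyTime.PB (fun n => (2 * W' + 2) + ((6 * c + 2) +
      ((n + 2) ^ c + 2) ^ k) + (n + (n + 2) ^ c)) :=
    ((Vale.Agent.Lib.PolyTime.PB.const _).add ((Vale.Agent.Lib.PolyTime.PB.const _).add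
      (((Vale.Agent.Lib.PolyTime.PB.pb c).add (Vale.Agent.Lib.PolyTime.PB.const 2)).pow k))).add
      (Vale.Agent.Lib.PolyTime.PB.id.add (Vale.Agent.Lib.PolyTime.PB.pb c))
  obtain ⟨K, hK⟩ := hPB
  refine ⟨W', K, block p W' c, by omega, ⟨?_, ?_⟩, block_norand p W' c, ?_⟩
  · intro L i hi
    simp only [block, Prog.wr, List.mem_append] at hi
    rcases hi with hi | hi | hi
    · rcases clr_wr L W' i hi with h | h
      · exact Or.inl h
      · right; right; omega
    · exact Or.inr (Or.inl (pw_wr L c i hi))
    · rcases tr_wr L (W' + 1) p hpW i hi with h | h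
      · exact Or.inl h
      · right; right; omega
  · intro L i hi
    simp only [block, Prog.wa, List.mem_append, clr_wa, pw_wa, List.not_mem_nil, false_or] at hi
    have := tr_wa L (W' + 1) p hpW i hi
    omega
  · intro L hL E σ x hx hR
    have hKx : (2 * W' + 2) + ((6 * c + 2) + ((x.length + 2) ^ c + 2) ^ k) +
        (x.length + (x.length + 2) ^ c) ≤ (x.length + 2) ^ K := hK x.length
    have hlen := hx.len
    have hB1 : (x.length + 2) ^ c ≤ E.R := by
      have : (x.length + 2) ^ c ≤ (x.length + 2) ^ K := by
        refine le_trans ?_ hKx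
        omega
      omega
    refine (Spec.seq0 (2 * W' + 2) ((6 * c + 2) + ((x.length + 2) ^ c + 2) ^ k) _
      (clr_spec L W' σ) fun σ1 hfr1 h1 => ?_).mono ?_ fun σ' h => h
    · have hr1 : σ1.reg L.r = σ.reg L.r := hfr1.reg _ fun h3 => by
        have h4 := clr_wr L W' _ h3
        have := hL.c
        omega
      have ha1 : σ1.arr L.a = σ.arr L.a := hfr1.arr _ (by rw [clr_wa]; simp)
      refine Spec.seq0 (6 * c + 2) _ _ (pw_spec L hL c σ1 (by rw [hr1, hlen]; exact hB1))
        fun σ2 hfr2 h2 => ?_
      rw [hr1, hlen] at h2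
      have hreg2 : ∀ i, L.r ≤ i → σ2.reg i = σ1.reg i := fun i hi => hfr2.reg _ fun h3 => by
        have h4 := pw_wr L c _ h3
        have := hL.B
        omega
      have harr2 : ∀ i, σ2.arr i = σ1.arr i := fun i => hfr2.arr _ (by rw [pw_wa]; simp)
      -- the start configuration of the stack machine
      set s : ℕ → Word := fun i => if i = 0 then x else [] with hs
      obtain ⟨t, ht, he⟩ := hp s (fun i h1 _ => by rw [hs]; simp; intro h; omega)
      have hs0 : s 0 = x := by simp [hs]
      rw [hs0] at ht he
      have hrel : Rel (W' + 1) L s σ2 := by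
        intro i hi
        by_cases hi0 : i = 0
        · subst hi0
          simp only [Nat.add_zero, hs0]
          refine hx.congr ?_ ?_
          · rw [hreg2 _ le_rfl, hr1]
          · rw [harr2, ha1]
        · have hsi : s i = [] := by simp [hs, hi0]
          rw [hsi]
          refine ⟨?_, fun m hm => by simp at hm⟩
          rw [hreg2 _ (by omega), h1 i (by omega) (by omega)]
          rfl
      have htB : t ≤ (x.length + 2) ^ c := ht
      refine (sim (E := E) hL hB1 p hpW s t _ he σ2 hrel h2 htB fun i hi => ?_).mono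
        (hk _) fun σ' h' => ⟨?_, ?_⟩
      · have : (s i).length ≤ x.length := by
          simp only [hs]; split_ifs <;> simp
        have h5 : x.length + (x.length + 2) ^ c ≤ (x.length + 2) ^ K := by
          refine le_trans ?_ hKx
          omega
        omega
      · have := h' 0 (by omega)
        rw [Function.update_of_ne (by omega), hs0] at this
        exact this
      · have := h' 1 (by omega)
        rwa [Function.update_self] at this
    · refine le_trans ?_ hKx
      omega

/-- Read a number computed from the memory word into register `z`. -/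
theorem exists_read' {α : Type*} [Enc α] {g : α → ℕ} (hf : PT ∅ g) :
    ∃ (W k : ℕ) (P : Lay → ℕ → Prog), (∀ L z, (∀ i ∈ (P L z).wr, i = z ∨ i = z + 4 ∨ i = L.c ∨
      i = L.B ∨ (L.r ≤ i ∧ i ≤ L.r + W)) ∧ ∀ i ∈ (P L z).wa, L.a ≤ i ∧ i ≤ L.a + W) ∧
      (∀ L z, (P L z).norand = true) ∧
      ∀ (L : Lay), L.Ok → ∀ z : ℕ, (L.r + 1 < z ∨ z + 4 < L.r) → ∀ (E : Env) (σ : State) (a : α),
        Mem σ L a → (esize a + 2) ^ k ≤ E.R → g a ≤ E.R →
        Spec E σ (P L z) ((esize a + 2) ^ k) (fun σ' => Mem σ' L a ∧ σ'.reg z = g a) := by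
  obtain ⟨f, hg, hgf⟩ := hf
  obtain ⟨W, k, P, hW1, hFit, hnr, hP⟩ := exists_fun' hg
  obtain ⟨T, hT, -, hgT⟩ := hg.length_le
  have hPB : Vale.Agent.Lib.PolyTime.PB (fun n => (n + 2) ^ k + (9 * T n + 4)) :=
    (Vale.Agent.Lib.PolyTime.PB.pb k).add (((Vale.Agent.Lib.PolyTime.PB.const 9).mul hT).add
      (Vale.Agent.Lib.PolyTime.PB.const 4))
  obtain ⟨K, hK⟩ := hPB
  refine ⟨W, K, fun L z => .seq (P L) (readNat z (L.a + 1) (L.r + 1)), fun L z => ⟨?_, ?_⟩,
    fun L z => by simp [Prog.norand, readNat, hnr L], ?_⟩
  · intro i hi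
    simp only [Prog.wr, List.mem_append, readNat] at hi
    rcases hi with hi | hi
    · have := hFit.wr L i hi
      omega
    · simp at hi
      omega
  · intro i hi
    simp only [Prog.wa, List.mem_append, readNat] at hi
    rcases hi with hi | hi
    · exact hFit.wa L i hi
    · simp at hi
  · intro L hL z hz E σ a ha hR hgR
    have hKa : (esize a + 2) ^ k + (9 * T (esize a) + 4) ≤ (esize a + 2) ^ K := hK (esize a)
    have hlen : (enc (g a)).length ≤ T (esize a) := by
      have := hgT (enc a)
      rwa [hgf] at this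
    refine (Spec.seq0 ((esize a + 2) ^ k) (9 * (g a).bits.length + 4) _
      (hP L hL E σ (enc a) ha (by simp only [esize] at hKa hR ⊢; omega)) fun σ1 _ h1 => ?_).le
      (by have : (enc (g a)).length = (g a).bits.length := rfl
          omega)
    have h2 : Holds σ1 (L.a + 1) (L.r + 1) (g a).bits := by
      have := h1.2
      rwa [hgf] at this
    refine ((readNat_spec (z := z) (fun i hi => by omega) (by have := hL.a; omega) σ1 h2
      hgR).withFrame).mono le_rfl fun σ' h => ⟨?_, h.2⟩
    refine Mem.frame (a := a) h1.1 h.1 ?_ ?_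
    · simp [readNat, Prog.wr]
      omega
    · simp [readNat, Prog.wa]

end Vale.Agent.P315.H486
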