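import Vale.Agent.P315.H486.NoRand

/-!
# Parameters on the word RAM

`exists_params`: finitely many polynomial time functions `par i` (`i ∈ regs`) of the parameter
vector `p = (lx, ly)` are computed into the registers `i ∈ regs`; `pushPar` pushes the vector.
-/

set_option autoImplicit false

namespace Vale.Agent.P315.H486

open Vale.Agent.P315 Vale.Agent.P315.RAM
open Vale.Agent.Lib.PolyTime (Word pb pr FP PT Enc enc esize)

variable {E : Env}

/-- Parameters: length of `x`, length of `y`. -/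
abbrev Par := ℕ × ℕ

/-- The object on the memory word while the parameters are computed. -/
def obj (p : Par) : ℕ × ℕ × ℕ := (p.1, p.2, 0)

theorem pt_of_obj {f : Par → ℕ} (h : PT ∅ f) :
    PT ∅ (fun q : ℕ × ℕ × ℕ => f (q.1, q.2.1)) :=
  h.comp (PT.fst'.pair PT.snd'.fst)

theorem exists_params (par : ℕ → Par → ℕ) (regs : List ℕ) (h : ∀ i ∈ regs, PT ∅ (par i)) :
    ∃ (W k : ℕ) (P : Lay → ℕ → Prog),
      (∀ L z, (∀ i ∈ (P L z).wr, i = z ∨ i = z + 4 ∨ i = L.c ∨ i = L.B ∨
        (L.r ≤ i ∧ i ≤ L.r + W) ∨ i ∈ regs) ∧ ∀ i ∈ (P L z).wa, L.a ≤ i ∧ i ≤ L.a + W) ∧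
      (∀ L z, (P L z).norand = true) ∧ ∀ (L : Lay), L.Ok → ∀ z : ℕ, z + 4 < L.r →
        (∀ i ∈ regs, i < L.r ∧ i ≠ z ∧ i ≠ z + 4 ∧ i ≠ L.c ∧ i ≠ L.B) → ∀ (E : Env) (σ : State)
        (p : Par), Mem σ L (obj p) → (esize (obj p) + 2) ^ k ≤ E.R →
        (∀ i ∈ regs, par i p ≤ E.R) →
        Spec E σ (P L z) ((esize (obj p) + 2) ^ k)
          (fun σ' => Mem σ' L (obj p) ∧ ∀ i ∈ regs, σ'.reg i = par i p) := by
  induction regs with
  | nil =>
    refine ⟨0, 1, fun L z => .set z (.lit 0), fun L z => ⟨fun i hi => ?_, fun i hi => ?_⟩,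
      fun L z => rfl, ?_⟩
    · left; simpa [Prog.wr] using hi
    · simp [Prog.wa] at hi
    · intro L hL z hz _ E σ p hM hR _
      refine (Spec.set0 0 rfl rfl (fun _ => by omega) fun _ => ⟨?_, by simp⟩).le
        (by simp [Expr.cost])
      exact hM.congr (by rw [State.setReg_reg, if_neg (by omega)]) rfl
  | cons i is ih =>
    obtain ⟨W, k, P, hP, hPn, hPs⟩ := ih fun j hj => h j (List.mem_cons_of_mem _ hj)
    obtain ⟨W', k', R, hR, hRn, hRs⟩ := exists_read' (pt_of_obj (h i List.mem_cons_self))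
    refine ⟨W + W', max k k' + 2, fun L z => .seq (P L z) (.seq (R L z) (.set i (.reg z))),
      fun L z => ⟨fun j hj => ?_, fun j hj => ?_⟩,
      fun L z => by simp [Prog.norand, hPn L z, hRn L z], ?_⟩
    · simp only [Prog.wr, List.mem_append, List.mem_singleton] at hj
      rcases hj with hj | hj | hj
      · rcases (hP L z).1 j hj with h | h | h | h | h | h
        · exact Or.inl h
        · exact Or.inr (Or.inl h)
        · exact Or.inr (Or.inr (Or.inl h))
        · exact Or.inr (Or.inr (Or.inr (Or.inl h)))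
        · exact Or.inr (Or.inr (Or.inr (Or.inr (Or.inl (by omega)))))
        · exact Or.inr (Or.inr (Or.inr (Or.inr (Or.inr (List.mem_cons_of_mem _ h)))))
      · rcases (hR L z).1 j hj with h | h | h | h | h
        · exact Or.inl h
        · exact Or.inr (Or.inl h)
        · exact Or.inr (Or.inr (Or.inl h))
        · exact Or.inr (Or.inr (Or.inr (Or.inl h)))
        · exact Or.inr (Or.inr (Or.inr (Or.inr (Or.inl (by omega)))))
      · subst hj
        exact Or.inr (Or.inr (Or.inr (Or.inr (Or.inr List.mem_cons_self))))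
    · simp only [Prog.wa, List.mem_append, List.not_mem_nil, or_false] at hj
      rcases hj with hj | hj
      · have := (hP L z).2 j hj
        omega
      · have := (hR L z).2 j hj
        omega
    · intro L hL z hz hreg E σ p hM hbR hpar
      set X := esize (obj p) + 2 with hX
      have hX2 : 2 ≤ X := by omega
      have e1 : X ^ k ≤ X ^ max k k' := Nat.pow_le_pow_right (by omega) (le_max_left _ _)
      have e2 : X ^ k' ≤ X ^ max k k' := Nat.pow_le_pow_right (by omega) (le_max_right _ _)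
      have e3 : X ^ (max k k' + 2) = X ^ max k k' * (X * X) := by ring
      have e4 : 4 ≤ X * X := Nat.mul_le_mul hX2 hX2
      have e5 : X ^ max k k' * 4 ≤ X ^ max k k' * (X * X) := Nat.mul_le_mul_left _ e4
      have e6 : 1 ≤ X ^ max k k' := Nat.one_le_pow _ _ (by omega)
      have hi := hreg i List.mem_cons_self
      refine (Spec.seq0 (X ^ k) (X ^ k' + 2) _ (hPs L hL z hz
        (fun j hj => hreg j (List.mem_cons_of_mem _ hj)) E σ p hM
        (show X ^ k ≤ E.R by omega)
        (fun j hj => hpar j (List.mem_cons_of_mem _ hj))) ?_).le (by omega)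
      rintro σ1 - ⟨h1, h2⟩
      refine Spec.seq0 (X ^ k') 2 _ ((hRs L hL z (Or.inr hz) E σ1 (obj p) h1
        (show X ^ k' ≤ E.R by omega) (hpar i List.mem_cons_self)).withFrame) ?_
      rintro σ2 - ⟨hf, h3, h4⟩
      have h4' : σ2.reg z = par i p := h4
      refine (Spec.set0 (par i p) rfl h4' (fun _ => hpar i List.mem_cons_self) fun _ => ⟨?_, ?_⟩)
      · exact h3.congr (by rw [State.setReg_reg, if_neg (by omega)]) rfl
      · intro j hj
        rw [State.setReg_reg]
        split_ifs with hji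
        · rw [hji]
        · have hj' : j ∈ is := by
            rcases List.mem_cons.mp hj with h | h
            · exact absurd h hji
            · exact h
          have hjr := hreg j hj
          rw [hf.reg j, h2 j hj']
          intro hw
          rcases (hR L z).1 j hw with h | h | h | h | h
          · exact hjr.2.1 h
          · exact hjr.2.2.1 h
          · exact hjr.2.2.2.1 h
          · exact hjr.2.2.2.2 h
          · omega

/-- Push the parameter vector. -/
def pushPar (L : Lay) (z y : ℕ) : Prog :=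
  .seq (.set L.r (.lit 0))
  (.seq (.set (z + 1) (eadd (.reg 0) (.reg 1)))
  (.seq (.set z (.reg 1)) (.seq (pushNat z y L.a L.r)
  (.seq (.set z (.reg 0)) (pushNat z y L.a L.r)))))

theorem pushPar_wr {L : Lay} {z y : ℕ} : ∀ i ∈ (pushPar L z y).wr,
    i = L.r ∨ (z ≤ i ∧ i ≤ z + 4) := by
  intro i hi
  simp [pushPar, pushNat, splitBits, pushBits, Prog.wr] at hi
  omega

theorem pushPar_wa {L : Lay} {z y : ℕ} : ∀ i ∈ (pushPar L z y).wa, i = y ∨ i = L.a := by
  intro i hi
  simp [pushPar, pushNat, splitBits, pushBits, Prog.wa] at hi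
  omega

theorem pushPar_norand (L : Lay) (z y : ℕ) : (pushPar L z y).norand = true := rfl

theorem esize_obj_le (p : Par) : esize (obj p) ≤ 2 * p.1 + 2 * p.2 + 2 := by
  have h : ∀ v : ℕ, esize v ≤ v := fun v => esize_nat_le (Nat.lt_two_pow_self (n := v))
  have h1 := h p.1
  have h2 := h p.2
  have h0 := h 0
  unfold obj
  rw [esize_pair, esize_pair]
  omega

/-- The size of the code of the parameter vector is logarithmic. -/
theorem esize_obj_log {p : Par} {m : ℕ} (h1 : p.1 < 2 ^ m) (h2 : p.2 < 2 ^ m) :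
    esize (obj p) ≤ 4 * m + 2 := by
  have e1 := esize_nat_le h1
  have e2 := esize_nat_le h2
  have e0 : esize (0 : ℕ) = 0 := rfl
  unfold obj
  rw [esize_pair, esize_pair]
  omega

theorem pushPar_spec {L : Lay} (hL : L.Ok) {z y : ℕ} (hz2 : 2 ≤ z) (hz : z + 4 < L.r)
    (hy : 2 ≤ y) (hya : y ≠ L.a) {p : Par} (σ : State)
    (h0 : σ.reg 0 = p.1) (h1 : σ.reg 1 = p.2)
    (hR : 4 * (p.1 + p.2 + 2) ≤ E.R) :
    Spec E σ (pushPar L z y) (82 * (p.1 + p.2) + 60)
      (fun σ' => Mem σ' L (obj p)) := by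
  obtain ⟨lx, ly⟩ := p
  simp only at h0 h1 hR ⊢
  set m := lx + ly with hm
  have hL0 : (0 : ℕ) ≠ L.r := by omega
  have hL1 : (1 : ℕ) ≠ L.r := by omega
  have hlt : ∀ v : ℕ, v ≤ m → v < 2 ^ m := fun v hv =>
    lt_of_le_of_lt hv (Nat.lt_two_pow_self (n := m))
  have hsz : ∀ v : ℕ, esize v ≤ v := fun v => esize_nat_le (Nat.lt_two_pow_self (n := v))
  have s0 : esize (0 : ℕ) = 0 := rfl
  have s2 := hsz ly
  have s3 := hsz lx
  have q1 : esize ((ly, 0) : ℕ × ℕ) = 2 * esize ly + esize 0 + 1 := esize_pair ly 0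
  refine (Spec.seq0 2 (4 + (2 + ((41 * m + 20) + (2 + (41 * m + 20)))))
    (fun σ' => σ' = σ.setReg L.r 0) ?_ ?_).le (by omega)
  · exact Spec.set0 0 rfl rfl (fun _ => by omega) fun _ => rfl
  rintro σ1 - rfl
  refine Spec.seq0 4 _ (fun σ' => σ' = (σ.setReg L.r 0).setReg (z + 1) m) ?_ ?_
  · refine Spec.set1 m rfl (by simp [Expr.cost, eadd]) ?_ (fun _ => by omega) fun _ => rfl
    simp [h0, h1, hL0, hL1, hm]
  rintro σ2 - rfl
  refine Spec.seq0 2 _ (fun σ' => σ' = ((σ.setReg L.r 0).setReg (z + 1) m).setReg z ly) ?_ ?_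
  · refine Spec.set1 ly rfl (by simp [Expr.cost]) ?_ (fun _ => by omega) fun _ => rfl
    simp only [Expr.eval, State.setReg_reg]
    rw [if_neg (by omega), if_neg hL1, h1]
  rintro σ3 - rfl
  have m3 : Mem (((σ.setReg L.r 0).setReg (z + 1) m).setReg z ly) L (0 : ℕ) := by
    have he : (enc (0 : ℕ)) = ([] : Word) := rfl
    refine ⟨?_, fun i hi => ?_⟩
    · rw [he, State.setReg_reg, if_neg (by omega), State.setReg_reg, if_neg (by omega)]
      simp
    · rw [he] at hi; simp at hi
  have hk : ∀ i, i ≤ 4 → L.r ≠ z + i := fun i hi => by omega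
  refine Spec.seq0 (41 * m + 20) _ (fun σ' => Mem σ' L ((ly, 0) : ℕ × ℕ)) ?_ ?_
  · refine push_spec hL hy hya hk _ (by simp) ?_ (hlt ly (by omega)) m3 (by omega)
    rw [State.setReg_reg, if_neg (by omega)]
    simp
  intro σ4 hf4 m4
  have fr4 : ∀ j, j ≠ L.r → (j < z + 2 ∨ z + 4 < j) → σ4.reg j =
      (((σ.setReg L.r 0).setReg (z + 1) m).setReg z ly).reg j := fun j h1 h2 => hf4.reg j fun h => by
    rcases pushNat_wr j h with h | h <;> omega
  have r41 : σ4.reg (z + 1) = m := by
    rw [fr4 _ (by omega) (by omega), State.setReg_reg, if_neg (by omega)]; simp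
  have r40 : σ4.reg 0 = lx := by
    rw [fr4 _ hL0 (by omega)]
    simp only [State.setReg_reg]
    rw [if_neg (by omega), if_neg (by omega), if_neg hL0, h0]
  refine Spec.seq0 2 _ (fun σ' => σ' = σ4.setReg z lx) ?_ ?_
  · exact Spec.set1 lx rfl (by simp [Expr.cost]) r40 (fun _ => by omega) fun _ => rfl
  rintro σ5 - rfl
  have m5 : Mem (σ4.setReg z lx) L ((ly, 0) : ℕ × ℕ) :=
    m4.congr (by rw [State.setReg_reg, if_neg (by omega)]) rfl
  refine push_spec hL hy hya hk _ (by simp) ?_ (hlt lx (by omega)) m5 ?_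
  swap
  · show esize ((ly, 0) : ℕ × ℕ) + 2 * m + 1 ≤ E.R
    omega
  rw [State.setReg_reg, if_neg (by omega), r41]

end Vale.Agent.P315.H486
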